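import Vale.Agent.Lib.P310.Alt.Gate

/-!
# The extension to a sum constraint
-/

namespace Vale.Agent.Lib.P310.Alt

open Function

variable {ρ : ℕ} {V : Type} [AddCommGroup V] [Module (ZMod 2) V] [Fintype V] [DecidableEq V]
  {S : Sys ρ V} {s₀ : Fin ρ → V} {gR : Fin S.nG} {pa : Fin (S.nF + 1) × Option Bool}
  {Code : Set (Fin ρ → V)}

/-- The output member is derivable only from the two inputs. -/
lemma der_out {f : Fin S.nF} {s : Fin ρ → V} (h : S.Der (f.castSucc, none) s) :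
    S.Der (f.castSucc, some false) s ∧ S.Der (f.castSucc, some true) s := by
  generalize hp : ((f.castSucc, none) : Fin (S.nF + 1) × Option Bool) = p at h
  cases h with
  | gate g hg s' hs ha =>
    simp [Sys.topCut] at hp
  | conj f' s' h₀ h₁ =>
    simp only [Prod.mk.injEq, and_true] at hp
    have : f = f' := Fin.castSucc_injective _ hp
    subst this
    exact ⟨h₀, h₁⟩

/-- Two derivable members make all three derivable. -/
lemma der_all {f : Fin S.nF} {s : Fin ρ → V} {μ₁ μ₂ : Option Bool} (hne : μ₁ ≠ μ₂)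
    (h₁ : S.Der (f.castSucc, μ₁) s) (h₂ : S.Der (f.castSucc, μ₂) s) (μ : Option Bool) :
    S.Der (f.castSucc, μ) s := by
  have hboth : S.Der (f.castSucc, some false) s ∧ S.Der (f.castSucc, some true) s := by
    cases μ₁ with
    | none => exact der_out h₁
    | some b₁ =>
      cases μ₂ with
      | none => exact der_out h₂
      | some b₂ =>
        cases b₁ <;> cases b₂
        · exact absurd rfl hne
        · exact ⟨h₁, h₂⟩
        · exact ⟨h₂, h₁⟩
        · exact absurd rfl hne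
  cases μ with
  | none => exact Sys.Der.conj f s hboth.1 hboth.2
  | some b =>
    cases b
    · exact hboth.1
    · exact hboth.2

/-- If all three members at a token are fixed, not all pinned, then one valuation completes them. -/
lemma Wf.all_comp (hW : Wf S s₀ gR pa Code) {Q : Finset (Piece S)} (hQ : Q.card ≤ ρ) {f : Fin S.nF}
    {c' : Tok ρ V} (hFix : ∀ μ, Pin Q (f.castSucc, μ) c' ∨ ∃ s, CompW Q (f.castSucc, μ) c' s)
    {μ₁ : Option Bool} (hnp : ¬ Pin Q (f.castSucc, μ₁) c') :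
    ∃ s, ∀ μ, CompW Q (f.castSucc, μ) c' s := by
  classical
  obtain ⟨s, hs⟩ := (hFix μ₁).resolve_left hnp
  have hcu : ∀ {z₁ z₂ : Piece S}, z₁ ∈ Q → z₂ ∈ Q → cls z₁ = c'.1 → cls z₂ = c'.1 → z₁ = z₂ :=
    fun h₁ h₂ hc₁ hc₂ => hs.classUniq hQ h₁ h₂ hc₁ hc₂
  -- the two other members are not both pinned
  obtain ⟨μ₂, μ₃, h12, h13, h23⟩ : ∃ μ₂ μ₃ : Option Bool, μ₂ ≠ μ₁ ∧ μ₃ ≠ μ₁ ∧ μ₂ ≠ μ₃ := by
    cases μ₁ with
    | none => exact ⟨some false, some true, by simp, by simp, by simp⟩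
    | some b =>
      cases b
      · exact ⟨some true, none, by simp, by simp, by simp⟩
      · exact ⟨some false, none, by simp, by simp, by simp⟩
  have htwo : ∀ μ μ', μ ≠ μ' → Pin Q (f.castSucc, μ) c' → Pin Q (f.castSucc, μ') c' →
      ∀ μ'', Pin Q (f.castSucc, μ'') c' := by
    rintro μ μ' hne ⟨e₁, he₁, hl₁⟩ ⟨e₂, he₂, hl₂⟩ μ''
    have h1 := (lnk_class hl₁).symm
    have h2 := (lnk_class hl₂).symm
    obtain rfl := hcu he₁ he₂ h1 h2
    obtain ⟨f', rfl, hf⟩ := hW.lnk_member hl₁ hl₂ hne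
    exact ⟨_, he₁, hf, rfl⟩
  obtain ⟨μ₄, h14, s₄, hs₄⟩ : ∃ μ₄, μ₄ ≠ μ₁ ∧ ∃ s₄, CompW Q (f.castSucc, μ₄) c' s₄ := by
    by_cases hp₂ : Pin Q (f.castSucc, μ₂) c'
    · by_cases hp₃ : Pin Q (f.castSucc, μ₃) c'
      · exact absurd (htwo μ₂ μ₃ h23 hp₂ hp₃ μ₁) hnp
      · exact ⟨μ₃, h13, (hFix μ₃).resolve_left hp₃⟩
    · exact ⟨μ₂, h12, (hFix μ₂).resolve_left hp₂⟩
  have h4eq : s₄ = s := hW.comp_unique hQ hs₄ hs
  subst h4eq
  refine ⟨s₄, fun μ => ?_⟩
  have hder : S.Der (f.castSucc, μ) s₄ := der_all h14 hs₄.1 hs.1 μ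
  rcases hFix μ with hp | ⟨s₅, hs₅⟩
  · refine ⟨hder, hs.2.1, fun j hj => ?_⟩
    -- the pinned tokens come from sum constraints
    obtain ⟨z, hz, hzl⟩ := hp
    have hzc : cls z = c'.1 := (lnk_class hzl).symm
    obtain ⟨E, hE⟩ := hs.pick
    obtain ⟨E', hE'⟩ := hs₄.pick
    have h5 : E' j = E j := by
      rcases shape_of_pick hQ hz hzc hE (hE' j hj).1 with h6 | ⟨j', hj', h6⟩
      · exfalso
        have h7 := cls_pick hE' hj
        rw [h6, hzc] at h7
        exact hj h7.symm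
      · have h7 := cls_pick hE' hj
        rw [h6, cls_pick hE hj'] at h7
        rw [h6, h7]
    obtain ⟨f', hf1, hf2⟩ := hW.lnk_member (h5 ▸ (hE' j hj).2) (hE j hj).2 h14
    refine ⟨E j, (hE j hj).1, ?_⟩
    rw [hf1]
    exact ⟨hf2, rfl⟩
  · have := hW.comp_unique hQ hs₅ hs
    rwa [this] at hs₅

lemma chiV_out (θ : Th S) (F : Fin (S.nF + 1)) (c : Tok ρ V) :
    θ.chiV (F, none) c = θ.chiV (F, some false) c + θ.chiV (F, some true) c := by
  simp only [Th.chiV, Th.chiA, Aff.eval, Prod.fst_add, Prod.snd_add, LinearMap.add_apply]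
  ring

/-- The three forced values of a sum constraint are compatible. -/
lemma Wf.con_identity (hW : Wf S s₀ gR pa Code) {Q : Finset (Piece S)} (hQ : Q.card ≤ ρ) {θ : Th S}
    (hT : Truth Q θ) {f : Fin S.nF} {c' : Tok ρ V}
    (hFix : ∀ μ, Pin Q (f.castSucc, μ) c' ∨ ∃ s, CompW Q (f.castSucc, μ) c' s) :
    want Q θ (f.castSucc, some false) c' + want Q θ (f.castSucc, some true) c' =
      want Q θ (f.castSucc, none) c' := by
  classical
  by_cases hall : ∀ μ, Pin Q (f.castSucc, μ) c'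
  · rw [hW.want_of_pin hQ hT (hall _), hW.want_of_pin hQ hT (hall _),
      hW.want_of_pin hQ hT (hall _), chiV_out]
  · push Not at hall
    obtain ⟨μ₁, hμ₁⟩ := hall
    obtain ⟨s, hs⟩ := hW.all_comp hQ hFix hμ₁
    rw [hW.want_eq hQ θ (hs _), hW.want_eq hQ θ (hs _), hW.want_eq hQ θ (hs _)]
    unfold Tgt
    rw [← Finset.sum_add_distrib]
    exact Finset.sum_congr rfl fun j _ => (chiV_out θ _ _).symm

/-- The extension to a sum constraint. -/
lemma Wf.ext_con (hW : Wf S s₀ gR pa Code) {Q : Finset (Piece S)} (hQ : Q.card ≤ ρ) {θ : Th S}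
    (hinv : Inv Q θ) (f : Fin S.nF) (c' : Tok ρ V) :
    ∃ ω : ZMod 2 × ZMod 2, ∀ Q', Q' ⊆ Q → Q'.card < ρ → ∃ θ' : Th S,
      Inv (insert (Piece.con f c') Q') θ' ∧ θ'.off (Piece.con f c') = ω ∧
      ∀ e' ∈ Q', θ'.off e' = θ.off e' := by
  classical
  set F := f.castSucc with hF
  have hlnk : ∀ p tok, Lnk (Piece.con f c') p tok → ∃ μ, p = (F, μ) ∧ tok = c' := by
    rintro ⟨f', μ⟩ tok ⟨h1, h2⟩
    simp only at h1
    exact ⟨μ, by rw [h1], h2⟩
  by_cases hany : ∃ μ s, CompW Q (F, μ) c' s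
  · obtain ⟨μ₀, s₀', hs⟩ := hany
    have hcu : ClassU Q c'.1 := fun z₁ h₁ z₂ h₂ hc₁ hc₂ => hs.classUniq hQ h₁ h₂ hc₁ hc₂
    set w₀ := want Q θ (F, some false) c' with hw₀
    set w₁ := want Q θ (F, some true) c' with hw₁
    set wd := want Q θ (F, none) c' with hwd
    let Fix : Option Bool → Prop := fun μ => Pin Q (F, μ) c' ∨ ∃ s, CompW Q (F, μ) c' s
    obtain ⟨α, β, ha, hb, hd⟩ : ∃ α β : ZMod 2, (Fix (some false) → α = w₀) ∧
        (Fix (some true) → β = w₁) ∧ (Fix none → α + β = wd) := by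
      by_cases F0 : Fix (some false) <;> by_cases F1 : Fix (some true) <;> by_cases Fd : Fix none
      · refine ⟨w₀, w₁, fun _ => rfl, fun _ => rfl, fun _ => ?_⟩
        refine hW.con_identity hQ hinv.2 (fun μ => ?_)
        cases μ with
        | none => exact Fd
        | some b => cases b <;> assumption
      · exact ⟨w₀, w₁, fun _ => rfl, fun _ => rfl, fun h => absurd h Fd⟩
      · refine ⟨w₀, w₀ + wd, fun _ => rfl, fun h => absurd h F1, fun _ => ?_⟩
        rw [← add_assoc, zmod2_add_self', zero_add]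
      · exact ⟨w₀, 0, fun _ => rfl, fun h => absurd h F1, fun h => absurd h Fd⟩
      · refine ⟨w₁ + wd, w₁, fun h => absurd h F0, fun _ => rfl, fun _ => ?_⟩
        rw [add_comm w₁, add_assoc, zmod2_add_self', add_zero]
      · exact ⟨0, w₁, fun h => absurd h F0, fun _ => rfl, fun h => absurd h Fd⟩
      · exact ⟨0, wd, fun h => absurd h F0, fun h => absurd h F1, fun _ => zero_add _⟩
      · exact ⟨0, 0, fun h => absurd h F0, fun h => absurd h F1, fun h => absurd h Fd⟩
    refine ⟨(α, β), fun Q' hsub hlt => ?_⟩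
    obtain ⟨i, r⟩ := c'
    have hpin0 : Pin Q' (F, some false) (i, r) → α = θ.chiV (F, some false) (i, r) := fun hp => by
      rw [ha (Or.inl (hp.mono hsub)), hw₀]
      exact hW.want_of_pin hQ hinv.2 (hp.mono hsub)
    have hpin1 : Pin Q' (F, some true) (i, r) → β = θ.chiV (F, some true) (i, r) := fun hp => by
      rw [hb (Or.inl (hp.mono hsub)), hw₁]
      exact hW.want_of_pin hQ hinv.2 (hp.mono hsub)
    have hpind : Pin Q' (F, none) (i, r) → α + β = θ.chiV (F, none) (i, r) := fun hp => by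
      rw [hd (Or.inl (hp.mono hsub)), hwd]
      exact hW.want_of_pin hQ hinv.2 (hp.mono hsub)
    have h2 : ∀ a b : ZMod 2, a = b → a + b = 0 := by decide
    obtain ⟨θ', h1, -, -, -, h5, h6⟩ := hW.setFam (Q' := Q') (f := F) (i := i) (r' := r)
      (d₀ := α + θ.chiV (F, some false) (i, r)) (d₁ := β + θ.chiV (F, some true) (i, r))
      (fun z₁ h₁ z₂ h₂ hc₁ hc₂ => hcu z₁ (hsub h₁) z₂ (hsub h₂) hc₁ hc₂)
      (fun hp => h2 _ _ (hpin0 hp)) (fun hp => h2 _ _ (hpin1 hp))
      (fun hp => by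
        have h3 := hpind hp
        rw [chiV_out] at h3
        have h4 : ∀ a b c d : ZMod 2, a + b = c + d → a + c + (b + d) = 0 := by decide
        exact h4 _ _ _ _ h3)
      (fun hf => absurd hf (Fin.castSucc_lt_last f).ne) θ
    have hv0 : θ'.chiV (F, some false) (i, r) = α := by
      rw [h5, add_comm, add_assoc, zmod2_add_self', add_zero]
    have hv1 : θ'.chiV (F, some true) (i, r) = β := by
      rw [h6, add_comm, add_assoc, zmod2_add_self', add_zero]
    refine ⟨θ', inv_of_keep hinv hsub h1 (fun _ _ _ h => by simp at h) ?_, ?_,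
      fun e' he' => h1.off he'⟩
    · intro p tok s hl hc
      obtain ⟨μ, rfl, rfl⟩ := hlnk p tok hl
      rw [← hW.want_eq hQ θ hc]
      cases μ with
      | none =>
        rw [chiV_out, hv0, hv1]
        exact hd (Or.inr ⟨s, hc⟩)
      | some b =>
        cases b
        · rw [hv0]
          exact ha (Or.inr ⟨s, hc⟩)
        · rw [hv1]
          exact hb (Or.inr ⟨s, hc⟩)
    · simp only [Th.off]
      rw [← hF, hv0, hv1]
  · refine ⟨θ.off (Piece.con f c'), fun Q' hsub _ => ⟨θ, ?_, rfl, fun _ _ => rfl⟩⟩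
    refine inv_of_keep hinv hsub (Keep.refl _ _) (fun _ _ _ h => by simp at h) ?_
    intro p tok s hl hc
    obtain ⟨μ, rfl, rfl⟩ := hlnk p tok hl
    exact absurd ⟨μ, s, hc⟩ hany

end Vale.Agent.Lib.P310.Alt
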