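import Vale.Agent.Lib.P310.LinAlg

/-!
# Prefix sums and the correction lemma

A vector that is not a combination of the vectors of some chains can be repaired at a position
without touching the pebbles on those chains: each base vector is repeated `2 * k` times, so that
some block on each side of the position contains no pebble.
-/

namespace Vale.Agent.Lib.P310.Alt

variable {L : ℕ}

/-- The sum of `w l * Y l` over the positions `l < p`. -/
def prefixSum (w Y : Fin L → ZMod 2) (p : Fin L) : ZMod 2 :=
  ∑ l ∈ Finset.univ.filter (fun l : Fin L => l < p), w l * Y l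

lemma prefixSum_add (w Y δ : Fin L → ZMod 2) (p : Fin L) :
    prefixSum w (Y + δ) p = prefixSum w Y p + prefixSum w δ p := by
  unfold prefixSum
  rw [← Finset.sum_add_distrib]
  refine Finset.sum_congr rfl fun l _ => ?_
  simp [mul_add]

lemma prefixSum_eq_sum (w Y : Fin L → ZMod 2) (p : Fin L) :
    prefixSum w Y p = ∑ l, (if l < p then w l else 0) * Y l := by
  unfold prefixSum
  rw [Finset.sum_filter]
  refine Finset.sum_congr rfl fun l _ => ?_
  split_ifs <;> simp

lemma prefixSum_succ (w Y : Fin L → ZMod 2) {p p' : Fin L} (hp : p.val + 1 = p'.val) :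
    prefixSum w Y p' = prefixSum w Y p + w p * Y p := by
  classical
  unfold prefixSum
  have : Finset.univ.filter (fun l : Fin L => l < p') =
      insert p (Finset.univ.filter (fun l : Fin L => l < p)) := by
    ext l
    simp only [Finset.mem_filter, Finset.mem_univ, true_and, Finset.mem_insert, Fin.lt_def, Fin.ext_iff]
    omega
  rw [this, Finset.sum_insert (by simp), add_comm]

lemma prefixSum_first (w Y : Fin L → ZMod 2) {p : Fin L} (hp : p.val = 0) :
    prefixSum w Y p = 0 := by
  unfold prefixSum
  apply Finset.sum_eq_zero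
  intro l hl
  have := (Finset.mem_filter.mp hl).2
  rw [Fin.lt_def] at this
  omega

lemma prefixSum_last (w Y : Fin L → ZMod 2) {p : Fin L} (hp : p.val + 1 = L) :
    prefixSum w Y p + w p * Y p = ∑ l, w l * Y l := by
  classical
  unfold prefixSum
  have : (Finset.univ : Finset (Fin L)) = insert p (Finset.univ.filter (fun l : Fin L => l < p)) := by
    ext l
    have hl : l.val < L := l.isLt
    simp only [Finset.mem_filter, Finset.mem_univ, true_and, Finset.mem_insert, Fin.lt_def,
      Fin.ext_iff, true_iff]
    omega
  conv_rhs => rw [this]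
  rw [Finset.sum_insert (by simp), add_comm]

variable {k d : ℕ}

/-- The repetition of a vector. -/
def repV (k : ℕ) (hd : 0 < d) (w : Fin d → ZMod 2) : Fin (2 * k * d) → ZMod 2 :=
  fun l => w ⟨l.val % d, Nat.mod_lt _ hd⟩

/-- Aggregation over the chains: a combination of vectors indexed through a chain map equals the
sum over a set of chains of size at most the number of indices. -/
lemma exists_chain_set {C J : Type} [DecidableEq C] [Fintype J] (chain : J → C) (g : J → ZMod 2) :
    ∃ T : Finset C, T.card ≤ Fintype.card J ∧ (∀ c ∈ T, ∃ j, chain j = c) ∧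
      ∀ (A : Type) [AddCommGroup A] [Module (ZMod 2) A] (h : C → A),
        ∑ j, g j • h (chain j) = ∑ c ∈ T, h c := by
  classical
  let coef : C → ZMod 2 := fun c => ∑ j with chain j = c, g j
  refine ⟨(Finset.univ.image chain).filter (fun c => coef c = 1), ?_, ?_, ?_⟩
  · refine (Finset.card_filter_le _ _).trans (Finset.card_image_le.trans ?_)
    simp
  · intro c hc
    obtain ⟨j, -, hj⟩ := Finset.mem_image.mp (Finset.mem_filter.mp hc).1
    exact ⟨j, hj⟩
  · intro A _ _ h
    have h1 : ∑ j, g j • h (chain j) = ∑ c ∈ Finset.univ.image chain, coef c • h c := by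
      rw [← Finset.sum_fiberwise_of_maps_to (s := Finset.univ) (t := Finset.univ.image chain)
        (g := chain) (fun j _ => Finset.mem_image_of_mem _ (Finset.mem_univ j))]
      refine Finset.sum_congr rfl fun c _ => ?_
      simp only [coef]
      rw [Finset.sum_smul]
      refine Finset.sum_congr rfl fun j hj => ?_
      rw [(Finset.mem_filter.mp hj).2]
    rw [h1, Finset.sum_filter]
    refine Finset.sum_congr rfl fun c _ => ?_
    have h2 : coef c = 0 ∨ coef c = 1 := by
      generalize coef c = a
      revert a
      decide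
    rcases h2 with h2 | h2
    · simp [h2]
    · simp [h2]

/-- A point of a block. -/
lemma exists_block_point (hd : 0 < d) {q : ℕ} (hq : q < 2 * k) (r : Fin d) :
    ∃ l : Fin (2 * k * d), l.val = q * d + r.val ∧ l.val % d = r.val ∧ l.val / d = q := by
  have h1 : q * d + r.val < 2 * k * d := by
    have h2 : (q + 1) * d ≤ 2 * k * d := Nat.mul_le_mul_right _ hq
    have h3 : (q + 1) * d = q * d + d := by ring
    have h4 := r.isLt
    omega
  refine ⟨⟨q * d + r.val, h1⟩, rfl, ?_, ?_⟩
  · simp only
    rw [Nat.mul_comm, Nat.mul_add_mod, Nat.mod_eq_of_lt r.isLt]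
  · simp only
    rw [Nat.mul_comm, Nat.mul_add_div hd, Nat.div_eq_of_lt r.isLt, Nat.add_zero]

/-- The core of the correction: the alternative of Fredholm on a clean block. -/
lemma exists_delta_of_clean {C J : Type} [DecidableEq C] [Fintype J] (hd : 0 < d)
    (u : C → Fin d → ZMod 2) (chain : J → C) (pos : J → Fin (2 * k * d)) (c' : C)
    (hind : ∀ T : Finset C, (∀ c ∈ T, ∃ j, chain j = c) → u c' ≠ ∑ c ∈ T, u c)
    (p' : Fin (2 * k * d)) (w₁ w₂ : Fin (2 * k * d) → ZMod 2) {q : ℕ} (hq : q < 2 * k)
    (hclean : ∀ j, (pos j).val / d ≠ q)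
    (hw : ∀ l : Fin (2 * k * d), l.val / d = q →
      w₁ l = repV k hd (u c') l ∧ w₂ l = 0 ∧ l ≠ p') :
    ∃ δ : Fin (2 * k * d) → ZMod 2, (∀ j, δ (pos j) = 0) ∧
      (∀ j, ∑ l, (if l < pos j then repV k hd (u (chain j)) l else 0) * δ l = 0) ∧
      (∀ j, ∑ l, repV k hd (u (chain j)) l * δ l = 0) ∧ δ p' = 0 ∧
      ∑ l, w₂ l * δ l = 0 ∧ ∑ l, w₁ l * δ l = 1 := by
  classical
  let v : C → Fin (2 * k * d) → ZMod 2 := fun c => repV k hd (u c)
  let F : (J ⊕ J ⊕ J ⊕ Bool) → Fin (2 * k * d) → ZMod 2 :=
    Sum.elim (fun j l => if l = pos j then 1 else 0)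
      (Sum.elim (fun j l => if l < pos j then v (chain j) l else 0)
        (Sum.elim (fun j l => v (chain j) l)
          (fun t l => if t then (if l = p' then 1 else 0) else w₂ l)))
  rcases fredholm F w₁ with ⟨γ, hγ⟩ | ⟨δ, hδ, hδ₁⟩
  · exfalso
    let n : J → ZMod 2 := fun j => if q < (pos j).val / d then 1 else 0
    let g : J → ZMod 2 := fun j => γ (Sum.inr (Sum.inl j)) * n j + γ (Sum.inr (Sum.inr (Sum.inl j)))
    obtain ⟨T, hTc, hTm, hTs⟩ := exists_chain_set chain g
    refine hind T hTm ?_
    rw [← hTs]
    funext r
    obtain ⟨l, hl1, hl2, hl3⟩ := exists_block_point (k := k) hd hq r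
    obtain ⟨hw1, hw2, hw3⟩ := hw l hl3
    have h1 := hγ l
    rw [hw1] at h1
    have hvl : ∀ c, v c l = u c r := by
      intro c
      show u c _ = u c r
      congr 1
      exact Fin.ext hl2
    have h1' : u c' r = _ := (hvl c').symm.trans h1
    rw [h1', Fintype.sum_sum_type, Fintype.sum_sum_type, Fintype.sum_sum_type]
    simp only [F, Sum.elim_inl, Sum.elim_inr, Fintype.sum_bool, if_true, if_false, Bool.false_eq_true,
      if_neg hw3, hw2, mul_zero, add_zero]
    have hne : ∀ j, l ≠ pos j := by
      intro j h
      apply hclean j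
      rw [← h, hl3]
    have hlt : ∀ j, (if l < pos j then u (chain j) r else 0) = n j * u (chain j) r := by
      intro j
      have hne' := hclean j
      by_cases hqj : q < (pos j).val / d
      · have h2 : l < pos j := by
          rw [Fin.lt_def]
          by_contra hle
          have h3 := Nat.div_le_div_right (c := d) (not_lt.mp hle)
          omega
        simp [n, hqj, h2]
      · have h2 : ¬ l < pos j := by
          rw [Fin.lt_def]
          intro hlt'
          have h3 := Nat.div_le_div_right (c := d) hlt'.le
          omega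
        simp [n, hqj, h2]
    simp only [hne, if_false, mul_zero, Finset.sum_const_zero, zero_add, hvl, hlt]
    rw [← Finset.sum_add_distrib, Finset.sum_apply]
    refine Finset.sum_congr rfl fun j _ => ?_
    simp only [Pi.smul_apply, smul_eq_mul, g]
    ring
  · refine ⟨δ, ?_, ?_, ?_, ?_, ?_, hδ₁⟩
    · intro j
      have := hδ (Sum.inl j)
      simpa [F] using this
    · intro j
      exact hδ (Sum.inr (Sum.inl j))
    · intro j
      exact hδ (Sum.inr (Sum.inr (Sum.inl j)))
    · have := hδ (Sum.inr (Sum.inr (Sum.inr true)))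
      simpa [F] using this
    · exact hδ (Sum.inr (Sum.inr (Sum.inr false)))

/-- The correction: a vector independent of the vectors of the pebbled chains can be repaired
without touching the pebbles; the repair of its chain happens on the far side of position `p'`. -/
theorem exists_correction {C J : Type} [DecidableEq C] [Fintype J] (hd : 0 < d)
    (u : C → Fin d → ZMod 2) (hJ : Fintype.card J + 1 ≤ k) (chain : J → C)
    (pos : J → Fin (2 * k * d)) (c' : C)
    (hind : ∀ T : Finset C, (∀ c ∈ T, ∃ j, chain j = c) → u c' ≠ ∑ c ∈ T, u c)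
    (p' : Fin (2 * k * d)) :
    ∃ δ : Fin (2 * k * d) → ZMod 2, (∀ j, δ (pos j) = 0) ∧
      (∀ j, prefixSum (repV k hd (u (chain j))) δ (pos j) = 0) ∧
      (∀ j, ∑ l, repV k hd (u (chain j)) l * δ l = 0) ∧ δ p' = 0 ∧
      prefixSum (repV k hd (u c')) δ p' = (if k * d ≤ p'.val then 1 else 0) ∧
      ∑ l, repV k hd (u c') l * δ l = 1 := by
  classical
  let v : C → Fin (2 * k * d) → ZMod 2 := fun c => repV k hd (u c)
  let t : Fin (2 * k * d) → ZMod 2 := fun l => if l < p' then v c' l else 0
  let s : Fin (2 * k * d) → ZMod 2 := fun l => if l < p' then 0 else v c' l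
  have hts : ∀ δ : Fin (2 * k * d) → ZMod 2, ∑ l, v c' l * δ l = ∑ l, t l * δ l + ∑ l, s l * δ l := by
    intro δ
    rw [← Finset.sum_add_distrib]
    refine Finset.sum_congr rfl fun l _ => ?_
    by_cases h : l < p' <;> simp [t, s, h]
  have hcard : ((Finset.univ : Finset J).image (fun j => (pos j).val / d)).card ≤ k - 1 := by
    refine Finset.card_image_le.trans ?_
    simp only [Finset.card_univ]
    omega
  by_cases hright : k * d ≤ p'.val
  · -- the clean block is on the left
    obtain ⟨q, hq, hqn⟩ := Finset.exists_mem_notMem_of_card_lt_card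
      (s := (Finset.univ : Finset J).image (fun j => (pos j).val / d))
      (t := Finset.range k) (by simp only [Finset.card_range]; omega)
    have hqk : q < k := Finset.mem_range.mp hq
    have hclean : ∀ j, (pos j).val / d ≠ q := by
      intro j h
      exact hqn (Finset.mem_image.mpr ⟨j, Finset.mem_univ _, h⟩)
    obtain ⟨δ, h1, h2, h3, h4, h5, h6⟩ := exists_delta_of_clean hd u chain pos c' hind p' t s
      (q := q) (by omega) hclean (by
        intro l hl
        have hlt : l.val < p'.val := by
          have h7 : l.val < (q + 1) * d := Nat.lt_mul_of_div_lt (by omega) hd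
          have h8 : (q + 1) * d ≤ k * d := Nat.mul_le_mul_right _ hqk
          omega
        have hlt' : l < p' := hlt
        simp [t, s, hlt', hlt'.ne, v])
    refine ⟨δ, h1, fun j => ?_, h3, h4, ?_, ?_⟩
    · rw [prefixSum_eq_sum]
      exact h2 j
    · rw [if_pos hright, prefixSum_eq_sum]
      exact h6
    · have := hts δ
      simp only [v] at this
      rw [this, h5, h6, add_zero]
  · -- the clean block is on the right
    obtain ⟨q, hq, hqn⟩ := Finset.exists_mem_notMem_of_card_lt_card
      (s := (Finset.univ : Finset J).image (fun j => (pos j).val / d))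
      (t := Finset.Ico k (2 * k)) (by simp only [Nat.card_Ico]; omega)
    have hqk := Finset.mem_Ico.mp hq
    have hclean : ∀ j, (pos j).val / d ≠ q := by
      intro j h
      exact hqn (Finset.mem_image.mpr ⟨j, Finset.mem_univ _, h⟩)
    obtain ⟨δ, h1, h2, h3, h4, h5, h6⟩ := exists_delta_of_clean hd u chain pos c' hind p' s t
      (q := q) hqk.2 hclean (by
        intro l hl
        have hlt : p'.val < l.val := by
          have h7 : q * d ≤ l.val := by
            rw [← hl]
            exact Nat.div_mul_le_self _ _
          have h8 : k * d ≤ q * d := Nat.mul_le_mul_right _ hqk.1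
          omega
        have hlt' : p' < l := hlt
        simp [t, s, not_lt.mpr hlt'.le, hlt'.ne', v])
    refine ⟨δ, h1, fun j => ?_, h3, h4, ?_, ?_⟩
    · rw [prefixSum_eq_sum]
      exact h2 j
    · rw [if_neg hright, prefixSum_eq_sum]
      exact h5
    · have := hts δ
      simp only [v] at this
      rw [this, h5, h6, zero_add]

end Vale.Agent.Lib.P310.Alt
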