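import Vale.Agent.Lib.P310.Alt.Defs
import Vale.Agent.Lib.P310.Game

/-!
# Degrees in the graph of a system
-/

namespace Vale.Agent.Lib.P310.Alt

variable {ρ : ℕ} {V : Type} [AddCommGroup V] [Fintype V] [DecidableEq V] (S : Sys ρ V)
  [PieceNum S]

lemma flagTerm_le (x : Elem S) :
    (open Classical in if S.flagged x.1 ∧ x.2.1 ≠ 0 then 1 else 0 : ℕ) ≤ 1 := by
  split_ifs <;> omega

lemma elemCode_lt (x : Elem S) : elemCode S x < 2 * numPieces S := by
  have h1 := flagTerm_le S x
  have h2 : (PieceNum.idx (S := S) x.1).val + 1 ≤ numPieces S :=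
    (PieceNum.idx (S := S) x.1).isLt
  unfold elemCode
  omega

lemma leafCount_le (x : Elem S) :
    leafCount S x ≤ 2 * numPieces S * (4 * numPieces S + 1) :=
  Nat.mul_le_mul_right _ (elemCode_lt S x)

lemma card_elem : Fintype.card (Elem S) = 4 * numPieces S := by
  simp only [Fintype.card_prod, ZMod.card, numPieces]
  ring

lemma degree_none_ge (b : ZMod 2) (e : Elem S)
    [Fintype ((altGraph S b).neighborSet (e, none))] :
    leafCount S e ≤ (altGraph S b).degree (e, none) := by
  classical
  rw [← SimpleGraph.card_neighborFinset_eq_degree]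
  have hsub : (Finset.range (leafCount S e)).attach.image
      (fun i => ((e, some ⟨i.1, lt_of_lt_of_le (Finset.mem_range.mp i.2) (leafCount_le S e)⟩) :
        Vtx S)) ⊆ (altGraph S b).neighborFinset (e, none) := by
    intro w hw
    obtain ⟨i, -, rfl⟩ := Finset.mem_image.mp hw
    simp only [SimpleGraph.mem_neighborFinset]
    exact ⟨rfl, Finset.mem_range.mp i.2⟩
  have hcard := Finset.card_le_card hsub
  rwa [Finset.card_image_of_injective, Finset.card_attach, Finset.card_range] at hcard
  intro i j hij
  have := congrArg Prod.snd hij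
  simp only [Option.some.injEq, Fin.mk.injEq] at this
  exact Subtype.ext this

lemma degree_none_le (b : ZMod 2) (e : Elem S)
    [Fintype ((altGraph S b).neighborSet (e, none))] :
    (altGraph S b).degree (e, none) ≤ leafCount S e + 4 * numPieces S := by
  classical
  rw [← SimpleGraph.card_neighborFinset_eq_degree]
  have hsub : (altGraph S b).neighborFinset (e, none) ⊆
      (Finset.range (leafCount S e)).attach.image
        (fun i => ((e, some ⟨i.1, lt_of_lt_of_le (Finset.mem_range.mp i.2) (leafCount_le S e)⟩) :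
          Vtx S)) ∪ (Finset.univ : Finset (Elem S)).image (fun e' => ((e', none) : Vtx S)) := by
    rintro ⟨e', (_ | i)⟩ hw
    · exact Finset.mem_union_right _ (Finset.mem_image.mpr ⟨e', Finset.mem_univ _, rfl⟩)
    · simp only [SimpleGraph.mem_neighborFinset] at hw
      obtain ⟨rfl, hi⟩ := hw
      refine Finset.mem_union_left _ (Finset.mem_image.mpr
        ⟨⟨i.val, Finset.mem_range.mpr hi⟩, Finset.mem_attach _ _, rfl⟩)
  refine (Finset.card_le_card hsub).trans ((Finset.card_union_le _ _).trans ?_)
  refine Nat.add_le_add ?_ ?_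
  · refine Finset.card_image_le.trans ?_
    simp
  · refine Finset.card_image_le.trans ?_
    rw [Finset.card_univ, card_elem]

lemma degree_some_le (b : ZMod 2) (e : Elem S)
    (i : Fin (2 * numPieces S * (4 * numPieces S + 1)))
    [Fintype ((altGraph S b).neighborSet (e, some i))] :
    (altGraph S b).degree (e, some i) ≤ 1 := by
  classical
  rw [← SimpleGraph.card_neighborFinset_eq_degree]
  have hsub : (altGraph S b).neighborFinset (e, some i) ⊆ {((e, none) : Vtx S)} := by
    rintro ⟨e', (_ | j)⟩ hw
    · simp only [SimpleGraph.mem_neighborFinset] at hw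
      obtain ⟨rfl, -⟩ := hw
      simp
    · simp only [SimpleGraph.mem_neighborFinset] at hw
      exact absurd hw id
  simpa using Finset.card_le_card hsub

lemma numPieces_pos_of_elem (e : Elem S) : 1 ≤ numPieces S :=
  Fintype.card_pos_iff.mpr ⟨e.1⟩

/-- The degree of an element vertex determines its code, and leaf vertices are excluded. -/
lemma eq_of_degree_eq (b b' : ZMod 2) (e : Elem S) (w : Vtx S)
    [Fintype ((altGraph S b).neighborSet (e, none))]
    [Fintype ((altGraph S b').neighborSet w)]
    (h : (altGraph S b).degree (e, none) = (altGraph S b').degree w) :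
    ∃ e', w = (e', none) ∧ elemCode S e' = elemCode S e := by
  classical
  obtain ⟨e', (_ | i)⟩ := w
  · refine ⟨e', rfl, ?_⟩
    have h1 := degree_none_ge S b e
    have h2 := degree_none_le S b e
    have h3 := degree_none_ge S b' e'
    have h4 := degree_none_le S b' e'
    by_contra hne
    unfold leafCount at h1 h2 h3 h4
    rcases Nat.lt_or_gt_of_ne hne with hlt | hlt
    · have h8 := Nat.mul_le_mul_right (4 * numPieces S + 1) (Nat.succ_le_succ hlt)
      have h7 : (elemCode S e' + 1 + 1) * (4 * numPieces S + 1) =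
          (elemCode S e' + 1) * (4 * numPieces S + 1) + (4 * numPieces S + 1) := by ring
      simp only [Nat.succ_eq_add_one] at h8
      omega
    · have h8 := Nat.mul_le_mul_right (4 * numPieces S + 1) (Nat.succ_le_succ hlt)
      have h7 : (elemCode S e + 1 + 1) * (4 * numPieces S + 1) =
          (elemCode S e + 1) * (4 * numPieces S + 1) + (4 * numPieces S + 1) := by ring
      simp only [Nat.succ_eq_add_one] at h8
      omega
  · exfalso
    have h1 := degree_none_ge S b e
    have h3 := degree_some_le S b' e' i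
    have h6 := numPieces_pos_of_elem S e
    have h10 : 4 * numPieces S + 1 ≤ leafCount S e := by
      unfold leafCount
      exact Nat.le_mul_of_pos_left _ (Nat.succ_pos _)
    omega

/-- Equal codes mean equal constraints and equal flags. -/
lemma elemCode_eq (e e' : Elem S) (h : elemCode S e = elemCode S e') :
    e.1 = e'.1 ∧ (S.flagged e.1 ∧ e.2.1 ≠ 0 ↔ S.flagged e'.1 ∧ e'.2.1 ≠ 0) := by
  classical
  have h1 := flagTerm_le S e
  have h2 := flagTerm_le S e'
  unfold elemCode at h
  have h3 : (PieceNum.idx (S := S) e.1).val = (PieceNum.idx (S := S) e'.1).val := by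
    omega
  have h4 : e.1 = e'.1 := (PieceNum.idx (S := S)).injective (Fin.ext h3)
  refine ⟨h4, ?_⟩
  rw [h3] at h
  have h5 : (if S.flagged e.1 ∧ e.2.1 ≠ 0 then 1 else 0 : ℕ) =
      (if S.flagged e'.1 ∧ e'.2.1 ≠ 0 then 1 else 0 : ℕ) := by
    convert Nat.add_left_cancel h
  by_cases h6 : S.flagged e.1 ∧ e.2.1 ≠ 0 <;> by_cases h7 : S.flagged e'.1 ∧ e'.2.1 ≠ 0 <;>
    simp_all

lemma elem_of_elem {k : ℕ} (hk : 2 ≤ k) {x y : Fin k → Vtx S}
    (h : SameColor (altGraph S 0) (altGraph S 1) x y) (j : Fin k) {e : Elem S}
    (hx : x j = (e, none)) : ∃ e', y j = (e', none) ∧ elemCode S e' = elemCode S e := by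
  classical
  have := h.degree_eq hk j
  rw [hx] at this
  exact eq_of_degree_eq S 0 1 e (y j) this

end Vale.Agent.Lib.P310.Alt
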