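import Vale.Agent.Lib.P310.Alt.Conj

/-!
# The extension to a position of a chain
-/

namespace Vale.Agent.Lib.P310.Alt

open Function

variable {ρ : ℕ} {V : Type} [AddCommGroup V] [Module (ZMod 2) V] [Fintype V] [DecidableEq V]
  {S : Sys ρ V} {s₀ : Fin ρ → V} {gR : Fin S.nG} {pa : Fin (S.nF + 1) × Option Bool}
  {Code : Set (Fin ρ → V)}

omit [DecidableEq V] [Fintype V] in
/-- An affine function has sum zero on a multiset of points with even size and zero sum. -/
lemma sum_aff_even {ι : Type} (F : Finset ι) (x : ι → V) (f : Aff V) (t : V)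
    (hc : Even F.card) (hs : ∑ c ∈ F, x c = 0) : ∑ c ∈ F, f.eval (x c + t) = 0 := by
  have h1 : ∀ c, f.eval (x c + t) = (f.1 + f.2 t) + f.2 (x c) := by
    intro c
    simp only [Aff.eval, map_add]
    ring
  rw [Finset.sum_congr rfl (fun c _ => h1 c), Finset.sum_add_distrib, Finset.sum_const, ← map_sum,
    hs, map_zero, add_zero, nsmul_eq_mul]
  have h2 : (F.card : ZMod 2) = 0 := (ZMod.natCast_eq_zero_iff_even).mpr hc
  rw [h2, zero_mul]

/-- The sum of the translated values of a cut over an even zero set vanishes. -/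
lemma sum_chi_even (θ : Th S) (p : Fin (S.nF + 1) × Option Bool) (g : Fin S.nG)
    {T : Finset (Tok ρ V)} (hT : EvenZero T) : ∑ c ∈ T, θ.chiV p (S.shift g c) = 0 := by
  classical
  rw [← Finset.sum_fiberwise T (fun c => c.1)]
  refine Finset.sum_eq_zero fun i _ => ?_
  have h1 : ∀ c ∈ T.filter (fun c => c.1 = i), θ.chiV p (S.shift g c) =
      (θ.chiA p i).eval (c.2 + S.lam g i) := by
    intro c hc
    have := (Finset.mem_filter.mp hc).2
    subst this
    rfl
  rw [Finset.sum_congr rfl h1]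
  exact sum_aff_even _ _ _ _ (hT i).1 (hT i).2

/-- The totals of the tokens of a dependency add up to zero. -/
lemma sum_tot_dep (θ : Th S) (g : Fin S.nG) {T : Finset (Tok ρ V)}
    (h : ∑ c ∈ T, S.u g c.1 c.2 = 0) : ∑ c ∈ T, θ.tot g c = 0 := by
  unfold Th.tot
  rw [Finset.sum_comm]
  refine Finset.sum_eq_zero fun l _ => ?_
  rw [← Finset.sum_mul]
  have h1 : ∑ c ∈ T, S.v g c l = 0 := by
    have := congrFun h ⟨l.val % S.m, Nat.mod_lt _ S.m_pos⟩
    simpa [Sys.v, Finset.sum_apply] using this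
  rw [h1, zero_mul]

/-- The twists of an even zero set add up to zero. -/
lemma sum_twist_even (hρ : 0 < ρ) (g : Fin S.nG) {T : Finset (Tok ρ V)} (hT : EvenZero T) :
    ∑ c ∈ T, S.twist g c = 0 := by
  classical
  by_cases hg : g = S.gt
  · have h1 : ∀ c : Tok ρ V, S.twist g c = if c.1 = (⟨0, hρ⟩ : Fin ρ) then 1 else 0 := by
      intro c
      simp only [Sys.twist, hg, true_and, Fin.ext_iff]
    rw [Finset.sum_congr rfl (fun c _ => h1 c), ← Finset.sum_filter, Finset.sum_const,
      nsmul_eq_mul, mul_one]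
    exact (ZMod.natCast_eq_zero_iff_even).mpr (hT ⟨0, hρ⟩).1
  · exact Finset.sum_eq_zero fun c _ => by simp [Sys.twist, hg]

/-- The defects of an even zero dependency add up to zero. -/
lemma sum_D_even (hρ : 0 < ρ) (θ : Th S) (g : Fin S.nG) {T : Finset (Tok ρ V)} (hT : EvenZero T)
    (h : ∑ c ∈ T, S.u g c.1 c.2 = 0) : ∑ c ∈ T, θ.D g c = 0 := by
  unfold Th.D
  rw [Finset.sum_add_distrib, Finset.sum_add_distrib, sum_chi_even θ _ g hT, sum_tot_dep θ g h,
    sum_twist_even hρ g hT]
  simp

/-- The totals of the tokens of a passing valuation add up to zero. -/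
lemma sum_tot_inA (θ : Th S) {g : Fin S.nG} {s : Fin ρ → V} (hs : S.InA g s) :
    ∑ i, θ.tot g (i, s i) = 0 := by
  unfold Th.tot
  rw [Finset.sum_comm]
  refine Finset.sum_eq_zero fun l _ => ?_
  rw [← Finset.sum_mul]
  have h1 : ∑ i, S.v g (i, s i) l = 0 := hs ⟨l.val % S.m, Nat.mod_lt _ S.m_pos⟩
  rw [h1, zero_mul]

/-- The value wanted at a token at the top of a gate: the twisted gate has no such link. -/
noncomputable def wantTop (Q : Finset (Piece S)) (θ : Th S) (g : Fin S.nG) (c' : Tok ρ V) :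
    ZMod 2 :=
  open Classical in
  if g = S.gt then θ.chiV (S.topCut g) (S.shift g c')
  else want Q θ (S.topCut g) (S.shift g c')

/-- The finish of the extension to a position of a chain, after the repair of the bits. -/
lemma Wf.finish_link (hW : Wf S s₀ gR pa Code) {Q Q' : Finset (Piece S)} (hQ : Q.card ≤ ρ)
    (hsub : Q' ⊆ Q) (hlt : Q'.card < ρ) {θ θ₀ : Th S} (hinv : Inv Q θ) (hk₀ : Keep Q' θ θ₀)
    (hχ : ∀ p c, θ₀.chiV p c = θ.chiV p c) {g : Fin S.nG} {c' : Tok ρ V} {l : Fin (2 * ρ * S.m)}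
    {Dt : ZMod 2} (hDt : Dt = wantTop Q θ g c' + (θ.tot g c' + S.twist g c'))
    (hYl : θ₀.Y g l = θ.Y g l) (hpre : θ₀.pre g c' l = θ.pre g c' l + Dt * rb l)
    (htot : θ₀.tot g c' = θ.tot g c' + Dt) :
    ∃ θ' : Th S, Inv (insert (Piece.link g c' l) Q') θ' ∧
      θ'.off (Piece.link g c' l) = (wantO Q θ (S.bot g) c' + θ.pre g c' l +
        (if l.val = 0 then 0 else S.twist g c') + Dt * rb l, θ.Y g l) ∧
      ∀ e' ∈ Q', θ'.off e' = θ.off e' := by
  classical
  have hr : ∀ a b t d : ZMod 2, a + (b + d) + t = a + b + t + d := by decide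
  have hzero : ∀ a b t d : ZMod 2, d = a + (b + t) → a + (b + d) + t = 0 := by decide
  by_cases hg : g = S.gt
  · subst hg
    obtain ⟨θ₂, h1, h2, h3, h4⟩ := hW.adjustBot (θ₁ := θ₀) hQ hsub hinv.2 S.gt (tok := c') hχ
    have hkeep : Keep Q' θ θ₂ := hk₀.trans h1
    have htop : θ₂.chiV (S.topCut S.gt) (S.shift S.gt c') =
        θ.chiV (S.topCut S.gt) (S.shift S.gt c') := by
      rw [h3 _ _ (fun p hp => (hW.fam _ p hp).symm), hχ]
    have hpre₂ : θ₂.pre S.gt c' l = θ₀.pre S.gt c' l := by
      simp only [Th.pre, h2]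
    have htot₂ : θ₂.tot S.gt c' = θ₀.tot S.gt c' := by
      simp only [Th.tot, h2]
    have hwt : wantTop Q θ S.gt c' = θ.chiV (S.topCut S.gt) (S.shift S.gt c') := by
      simp [wantTop]
    refine ⟨θ₂, inv_of_keep hinv hsub hkeep ?_ ?_, ?_, fun e' he' => hkeep.off he'⟩
    · intro g₂ c₂ l₂ he
      simp only [Piece.link.injEq] at he
      obtain ⟨rfl, rfl, -⟩ := he
      simp only [Th.D]
      rw [htop, htot₂, htot, ← hwt]
      exact hzero _ _ _ _ hDt
    · rintro p tok s (⟨h5, rfl⟩ | ⟨h5, -⟩) hc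
      · rw [← hW.want_eq hQ θ hc]
        rw [h5] at h4
        exact h4
      · exact absurd rfl h5
    · simp only [Th.off]
      rw [h4, hpre₂, hpre, congrFun (congrFun h2 S.gt) l, hYl]
      congr 1
      ring
  · obtain ⟨θ', h1, h2, h3, h4, h5, h6⟩ := hW.finish_gate hQ hsub hlt hinv.2 hk₀ hχ hg (c' := c')
      (e := Piece.link g c' l) rfl (fun p tok hl => by
        rcases hl with hl | ⟨-, hl⟩
        · exact Or.inl hl
        · exact Or.inr hl)
    have hpre₂ : θ'.pre g c' l = θ₀.pre g c' l := by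
      simp only [Th.pre, h1]
    have htot₂ : θ'.tot g c' = θ₀.tot g c' := by
      simp only [Th.tot, h1]
    have hwt : wantTop Q θ g c' = want Q θ (S.topCut g) (S.shift g c') := by
      simp [wantTop, hg]
    refine ⟨θ', ⟨fun g₂ c₂ l₂ hl => ?_, h6⟩, ?_, h4⟩
    · rcases Finset.mem_insert.mp hl with he | hl
      · simp only [Piece.link.injEq] at he
        obtain ⟨rfl, rfl, -⟩ := he
        simp only [Th.D]
        rw [h3, htot₂, htot, ← hwt]
        exact hzero _ _ _ _ hDt
      · rw [h5 _ _ _ hl]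
        exact hinv.1 _ _ _ (hsub hl)
    · simp only [Th.off]
      rw [h2, hpre₂, hpre, congrFun h1 l, hYl]
      congr 1
      ring

/-- The case of a dependency with even class sizes: then the forced value fits. -/
lemma Wf.even_case (hW : Wf S s₀ gR pa Code) {Q : Finset (Piece S)} (hQ : Q.card ≤ ρ) {θ : Th S}
    (hinv : Inv Q θ) {g : Fin S.nG} {c' : Tok ρ V} {T : Finset (Tok ρ V)}
    (hT : ∀ c ∈ T, ∃ l₂, Piece.link g c l₂ ∈ Q) (hc' : c' ∉ T) (hE : EvenZero (insert c' T))
    (hsum : ∑ c ∈ insert c' T, S.u g c.1 c.2 = 0) :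
    wantTop Q θ g c' + (θ.tot g c' + S.twist g c') = 0 := by
  classical
  have hρ : 0 < ρ := c'.1.pos
  have hD : θ.D g c' = 0 := by
    have h1 := sum_D_even hρ θ g hE hsum
    rw [Finset.sum_insert hc', Finset.sum_eq_zero, add_zero] at h1
    · exact h1
    · intro c hc
      obtain ⟨l₂, hl₂⟩ := hT c hc
      exact hinv.1 _ _ _ hl₂
  have hdefault : wantTop Q θ g c' = θ.chiV (S.topCut g) (S.shift g c') := by
    unfold wantTop
    by_cases hg : g = S.gt
    · rw [if_pos hg]
    rw [if_neg hg]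
    by_contra hne
    obtain ⟨⟨s, hs⟩, -⟩ := hW.want_ne hQ hinv.2 hne
    -- a second token of the class of c'
    have hcard := (hE c'.1).1
    have hmem : c' ∈ (insert c' T).filter (fun c => c.1 = c'.1) := by simp
    obtain ⟨c₂, hc₂, hne₂⟩ : ∃ c₂ ∈ (insert c' T).filter (fun c => c.1 = c'.1), c₂ ≠ c' := by
      by_contra hno
      push Not at hno
      have h1 : (insert c' T).filter (fun c => c.1 = c'.1) = {c'} :=
        Finset.eq_singleton_iff_unique_mem.mpr ⟨hmem, hno⟩
      rw [h1] at hcard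
      simp at hcard
    have hc₂' := Finset.mem_filter.mp hc₂
    have hc₂T : c₂ ∈ T := (Finset.mem_insert.mp hc₂'.1).resolve_left hne₂
    obtain ⟨l₂, hl₂⟩ := hT c₂ hc₂T
    have huniq : ∀ c₃ ∈ (insert c' T).filter (fun c => c.1 = c'.1), c₃ = c' ∨ c₃ = c₂ := by
      intro c₃ hc₃
      have hc₃' := Finset.mem_filter.mp hc₃
      rcases Finset.mem_insert.mp hc₃'.1 with h | h
      · exact Or.inl h
      · right
        obtain ⟨l₃, hl₃⟩ := hT c₃ h
        have := hs.classUniq hQ hl₃ hl₂ (show c₃.1 = c'.1 from hc₃'.2)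
          (show c₂.1 = c'.1 from hc₂'.2)
        simp only [Piece.link.injEq] at this
        exact this.2.1
    have hfil : (insert c' T).filter (fun c => c.1 = c'.1) = {c', c₂} := by
      ext c₃
      constructor
      · intro h
        simpa using huniq c₃ h
      · intro h
        simp only [Finset.mem_insert, Finset.mem_singleton] at h
        rcases h with rfl | rfl
        · exact hmem
        · exact hc₂
    have hzero := (hE c'.1).2
    rw [hfil, Finset.sum_pair (Ne.symm hne₂)] at hzero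
    apply hne₂
    have h3 : c'.2 = c₂.2 := by
      have := congrArg (· + c₂.2) hzero
      simp only [add_assoc, v_add_self, add_zero, zero_add] at this
      exact this
    exact Prod.ext hc₂'.2 h3.symm
  rw [hdefault]
  simp only [Th.D] at hD
  rw [← add_assoc]
  exact hD

/-- The case of a dependency which is a passing valuation. -/
lemma Wf.full_case (hW : Wf S s₀ gR pa Code) (hnd : ¬ S.Der pa s₀) {Q Q' : Finset (Piece S)}
    (hQ : Q.card ≤ ρ) (hsub : Q' ⊆ Q) (hlt : Q'.card < ρ) {θ : Th S} (hinv : Inv Q θ)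
    {g : Fin S.nG} {c' : Tok ρ V} {l : Fin (2 * ρ * S.m)} {T : Finset (Tok ρ V)} {s : Fin ρ → V}
    (hs : S.InA g s) (hT : ∀ c ∈ T, ∃ l₂, Piece.link g c l₂ ∈ Q') (hc' : c' ∉ T)
    (himg : insert c' T = Finset.univ.image (fun i => (i, s i)))
    (hDt : wantTop Q θ g c' + (θ.tot g c' + S.twist g c') = 1) :
    ∃ θ' : Th S, Inv (insert (Piece.link g c' l) Q') θ' ∧
      θ'.off (Piece.link g c' l) = (wantO Q θ (S.bot g) c' + θ.pre g c' l +
        (if l.val = 0 then 0 else S.twist g c') + 1 * rb l, θ.Y g l) ∧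
      ∀ e' ∈ Q', θ'.off e' = θ.off e' := by
  classical
  have hc's : c' = (c'.1, s c'.1) := by
    have h1 : c' ∈ Finset.univ.image (fun i => (i, s i)) := by
      rw [← himg]
      exact Finset.mem_insert_self _ _
    obtain ⟨i, -, h2⟩ := Finset.mem_image.mp h1
    rw [← h2]
  set i' := c'.1 with hi'
  -- the other tokens carry pebbles
  have hpeb : ∀ j, j ≠ i' → ∃ lj, Piece.link g (j, s j) lj ∈ Q' := by
    intro j hj
    have h1 : (j, s j) ∈ insert c' T := by
      rw [himg]
      exact Finset.mem_image.mpr ⟨j, Finset.mem_univ _, rfl⟩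
    rcases Finset.mem_insert.mp h1 with h2 | h2
    · exact absurd (congrArg Prod.fst h2) hj
    · exact hT _ h2
  have hpeb' : ∀ j, ∃ lj : Fin (2 * ρ * S.m), j ≠ i' → Piece.link g (j, s j) lj ∈ Q' := by
    intro j
    by_cases hj : j = i'
    · exact ⟨l, fun h => absurd hj h⟩
    · obtain ⟨lj, h⟩ := hpeb j hj
      exact ⟨lj, fun _ => h⟩
  choose lp hlp using hpeb'
  let E : Fin ρ → Piece S := fun j => Piece.link g (j, s j) (lp j)
  -- these are all the constraints of Q'
  have hcardE : ((Finset.univ.erase i').image E).card = ρ - 1 := by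
    rw [Finset.card_image_of_injective, Finset.card_erase_of_mem (Finset.mem_univ _),
      Finset.card_univ, Fintype.card_fin]
    intro j j' he
    simp only [E, Piece.link.injEq, Prod.mk.injEq] at he
    exact he.2.1.1
  have hsubE : (Finset.univ.erase i').image E ⊆ Q' := by
    intro e he
    obtain ⟨j, hj, rfl⟩ := Finset.mem_image.mp he
    exact hlp j (Finset.ne_of_mem_erase hj)
  have hQ'E : (Finset.univ.erase i').image E = Q' :=
    Finset.eq_of_subset_of_card_le hsubE (by rw [hcardE]; omega)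
  have hform : ∀ e' ∈ Q', ∃ j, j ≠ i' ∧ e' = E j := by
    intro e' he'
    rw [← hQ'E] at he'
    obtain ⟨j, hj, rfl⟩ := Finset.mem_image.mp he'
    exact ⟨j, Finset.ne_of_mem_erase hj, rfl⟩
  have hno : ∀ e' ∈ Q', cls e' ≠ i' := by
    intro e' he'
    obtain ⟨j, hj, rfl⟩ := hform e' he'
    exact hj
  have hcu : ClassU Q' i' := fun z₁ h₁ _ _ hc₁ _ => absurd hc₁ (hno _ h₁)
  have hnp : ∀ p r, ¬ Pin Q' p (i', r) := by
    rintro p r ⟨e', he', hl⟩
    exact hno _ he' (lnk_class hl).symm
  -- the facts at the ends of this gate are not derivable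
  have htopno : g ≠ S.gt → ¬ S.Der (S.topCut g) (fun i => s i + S.lam g i) := by
    intro hg hd
    have hcomp : CompW Q (S.topCut g) (S.shift g c') (fun i => s i + S.lam g i) := by
      refine ⟨hd, ?_, fun j hj => ?_⟩
      · show s i' + S.lam g i' = c'.2 + S.lam g i'
        rw [hc's]
      · exact ⟨_, hsub (hlp j hj), Or.inr ⟨hg, rfl, rfl⟩⟩
    have hwt : wantTop Q θ g c' = Tgt θ (S.topCut g) i' (fun i => s i + S.lam g i) := by
      unfold wantTop
      rw [if_neg hg]
      exact hW.want_eq hQ θ hcomp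
    have h1 : ∀ j ∈ Finset.univ.erase i', θ.chiV (S.topCut g) (j, s j + S.lam g j) =
        θ.tot g (j, s j) := by
      intro j hj
      have h2 := hinv.1 _ _ _ (hsub (hlp j (Finset.ne_of_mem_erase hj)))
      simp only [Th.D] at h2
      have h3 : S.twist g (j, s j) = 0 := by simp [Sys.twist, hg]
      rw [h3, add_zero] at h2
      have h4 : ∀ a b : ZMod 2, a + b = 0 → a = b := by decide
      exact h4 _ _ h2
    have h5 : Tgt θ (S.topCut g) i' (fun i => s i + S.lam g i) = θ.tot g c' := by
      unfold Tgt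
      rw [Finset.sum_congr rfl h1]
      have h6 := sum_tot_inA θ hs
      rw [← Finset.add_sum_erase _ _ (Finset.mem_univ i')] at h6
      have h7 : ∀ a b : ZMod 2, a + b = 0 → b = a := by decide
      have h8 := h7 _ _ h6
      rw [h8, hc's]
    have h9 : S.twist g c' = 0 := by simp [Sys.twist, hg]
    rw [hwt, h5, h9, add_zero, zmod2_add_self'] at hDt
    exact zero_ne_one hDt
  have hbot : ∃ p, S.bot g = some p ∧ ¬ S.Der p s := by
    by_cases hg : g = S.gt
    · subst hg
      have h1 := (hW.gt_A s).mp hs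
      subst h1
      exact ⟨pa, hW.gt_bot, hnd⟩
    · cases hb : S.bot g with
      | none =>
        exfalso
        refine htopno hg (Sys.Der.gate g hg s hs ?_)
        intro p hp
        rw [hb] at hp
        simp at hp
      | some p =>
        refine ⟨p, rfl, fun hd => htopno hg (Sys.Der.gate g hg s hs ?_)⟩
        intro p₂ hp
        rw [hb] at hp
        rw [← Option.some.inj hp]
        exact hd
  obtain ⟨p, hb, hnp₂⟩ := hbot
  have hbotne : p.1 ≠ Fin.last S.nF := hW.bot_ne_last g p hb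
  -- the new state
  set α := wantO Q θ (S.bot g) c' with hα
  set E₀ := θ.tot g c' + S.twist g c' with hE₀
  obtain ⟨f, μ⟩ := p
  obtain ⟨θ₁, h1, h2, h3, -, h5⟩ := hW.setVal (Q' := Q') (f := f) (μ := μ) (i := i') (r' := c'.2)
    (α + rb l) θ (fun _ => ⟨hcu, hnp _ _, fun hf => absurd hf hbotne⟩)
  obtain ⟨θ₂, h6, h7, h8, -, h10⟩ := hW.setVal (Q' := Q') (f := (S.top g).1)
    (μ := some (S.top g).2) (i := i') (r' := c'.2 + S.lam g i') E₀ θ₁
    (fun _ => ⟨hcu, hnp _ _, fun _ l₂ hl₂ => hno _ hl₂ rfl⟩)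
  have hfam : f ≠ (S.top g).1 := hW.fam g (f, μ) hb
  have hkeep : Keep Q' θ θ₂ := h1.trans h6
  have hY : θ₂.Y = θ.Y := by rw [h7, h2]
  have hbot₂ : θ₂.chiV (f, μ) c' = α + rb l := by
    rw [h8 _ _ hfam]
    exact h5
  have hpre₂ : θ₂.pre g c' l = θ.pre g c' l := by simp only [Th.pre, hY]
  have htot₂ : θ₂.tot g c' = θ.tot g c' := by simp only [Th.tot, hY]
  refine ⟨θ₂, ⟨fun g₂ c₂ l₂ hl => ?_, ?_⟩, ?_, fun e' he' => hkeep.off he'⟩
  · rcases Finset.mem_insert.mp hl with he | hl
    · simp only [Piece.link.injEq] at he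
      obtain ⟨rfl, rfl, -⟩ := he
      simp only [Th.D]
      have h11 : θ₂.chiV (S.topCut g₂) (S.shift g₂ c₂) = E₀ := h10
      rw [h11, htot₂, hE₀]
      have h12 : ∀ a b : ZMod 2, a + b + a + b = 0 := by decide
      exact h12 _ _
    · rw [hkeep.D hl]
      exact hinv.1 _ _ _ (hsub hl)
  · -- no derivable fact is fully pinned
    intro p₂ s₂ hd hp₂
    exfalso
    obtain ⟨e₂, he₂, hl₂⟩ := hp₂ i'
    have hje : e₂ = Piece.link g c' l := by
      rcases Finset.mem_insert.mp he₂ with h | h
      · exact h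
      · exact absurd (lnk_class hl₂).symm (hno _ h)
    subst hje
    -- a pinned token of another class comes from the pebble of that class
    have hoth : ∀ j, j ≠ i' → Lnk (E j) p₂ (j, s₂ j) := by
      intro j hj
      obtain ⟨e₃, he₃, hl₃⟩ := hp₂ j
      have hc₃ := (lnk_class hl₃)
      simp only at hc₃
      rcases Finset.mem_insert.mp he₃ with rfl | h
      · exact absurd hc₃ hj
      · obtain ⟨j', hj', rfl⟩ := hform e₃ h
        have : j = j' := hc₃
        subst this
        exact hl₃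
    rcases hl₂ with ⟨h11, h12⟩ | ⟨hg, h11, h12⟩
    · -- the bottom
      rw [hb] at h11
      have h13 := Option.some.inj h11
      subst h13
      apply hnp₂
      have hss : s₂ = s := by
        funext j
        by_cases hj : j = i'
        · subst hj
          have h14 := congrArg Prod.snd h12
          simp only at h14
          rw [h14, hc's]
        · have h14 := hW.lnk_unique (hoth j hj) (Or.inl ⟨hb, rfl⟩)
          simpa using h14
      rw [← hss]
      exact hd
    · -- the top
      apply htopno hg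
      subst h11
      have hss : s₂ = fun i => s i + S.lam g i := by
        funext j
        by_cases hj : j = i'
        · subst hj
          have h14 := congrArg Prod.snd h12
          simp only [Sys.shift] at h14
          rw [h14, hc's]
        · have h14 := hW.lnk_unique (hoth j hj) (Or.inr ⟨hg, rfl, rfl⟩)
          simpa [Sys.shift] using h14
      rw [← hss]
      exact hd
  · simp only [Th.off, hb]
    have h15 : θ₂.chiO (some (f, μ)) c' = θ₂.chiV (f, μ) c' := rfl
    rw [h15, hbot₂, hpre₂, congrFun (congrFun hY g) l]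
    congr 1
    ring

end Vale.Agent.Lib.P310.Alt
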