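import Vale.Agent.Lib.P310.Alt.ProgDefs

/-!
# The Reed-Solomon encoding of registers, and its linear checks
-/

namespace Vale.Agent.Lib.P310.Alt

open Function Polynomial

variable {F V : Type} {ρ ℓ M : ℕ} [Field F] [AddCommGroup V] [Module F V]

lemma encode_add (α : Fin ρ → F) (x y : Fin ℓ → V) :
    encode α (fun j => x j + y j) = fun i => encode α x i + encode α y i := by
  funext i
  simp [encode, smul_add, Finset.sum_add_distrib]

lemma encode_sub (α : Fin ρ → F) (x y : Fin ℓ → V) :
    encode α (fun j => x j - y j) = fun i => encode α x i - encode α y i := by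
  funext i
  simp [encode, smul_sub, Finset.sum_sub_distrib]

lemma encode_zero (α : Fin ρ → F) : encode α (fun _ : Fin ℓ => (0 : V)) = fun _ => 0 := by
  funext i
  simp [encode]

/-- A polynomial with fewer coefficients than zeros vanishes. -/
theorem eq_zero_of_encode_zero {α : Fin ρ → F} (hα : Injective α) (x : Fin ℓ → V)
    (I : Finset (Fin ρ)) (hI : ℓ ≤ I.card) (h : ∀ i ∈ I, encode α x i = 0) (j : Fin ℓ) :
    x j = 0 := by
  rw [← Module.forall_dual_apply_eq_zero_iff F]
  intro φ
  set p : F[X] := ∑ j : Fin ℓ, C (φ (x j)) * X ^ (j : ℕ) with hp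
  have h0 : p = 0 := by
    refine eq_zero_of_degree_lt_of_eval_index_eq_zero I hα.injOn
      (lt_of_lt_of_le (degree_sum_fin_lt _) (by exact_mod_cast hI)) fun i hi => ?_
    have h1 := congrArg φ (h i hi)
    simp only [encode, map_sum, map_smul, map_zero, smul_eq_mul] at h1
    simp only [hp, eval_finsetSum, eval_mul, eval_C, eval_pow, eval_X]
    rw [← h1]
    exact Finset.sum_congr rfl fun _ _ => mul_comm _ _
  have h1 : p.coeff j = φ (x j) := by
    simp only [hp, finsetSum_coeff, coeff_C_mul_X_pow]
    rw [Finset.sum_eq_single j]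
    · simp
    · intro b _ hb
      have : (j : ℕ) ≠ b := fun h' => hb (Fin.ext h'.symm)
      simp [this]
    · simp
  rw [← h1, h0]
  simp

/-- A nonzero encoding has more than `ρ - ℓ` nonzero entries. -/
theorem card_nonzero_encode {α : Fin ρ → F} (hα : Injective α) (x : Fin ℓ → V)
    (hx : ∃ j, x j ≠ 0) [DecidableEq V] :
    ρ < ℓ + (Finset.univ.filter (fun i => encode α x i ≠ 0)).card := by
  by_contra hcon
  push Not at hcon
  obtain ⟨j, hj⟩ := hx
  have hcard : (Finset.univ.filter (fun i => encode α x i = 0)).card +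
      (Finset.univ.filter (fun i => encode α x i ≠ 0)).card = ρ := by
    rw [Finset.card_filter_add_card_filter_not]
    simp
  refine hj (eq_zero_of_encode_zero hα x (Finset.univ.filter (fun i => encode α x i = 0))
    (by omega) (fun i hi => (Finset.mem_filter.mp hi).2) j)

lemma encode_injective {α : Fin ρ → F} (hα : Injective α) (hℓ : ℓ ≤ ρ) :
    Injective (encode (V := V) (ℓ := ℓ) α) := by
  intro x y hxy
  have h1 : encode α (fun j => x j - y j) = fun _ => 0 := by
    rw [encode_sub, hxy]
    simp
  funext j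
  have h2 := eq_zero_of_encode_zero hα (fun j => x j - y j) Finset.univ (by simpa using hℓ)
    (fun i _ => by rw [h1]) j
  exact sub_eq_zero.mp h2

/-- The existence of the checks for one guard. -/
lemma exists_rows [Fintype V] [Module (ZMod 2) V] (α : Fin ρ → F) (hM : Fintype.card V ^ ρ ≤ 2 ^ M)
    (G : Guard V ℓ) :
    ∃ (φ : Fin M → Module.Dual (ZMod 2) (Fin ρ → V)) (c : Fin M → ZMod 2),
      ∀ s : Fin ρ → V, (∀ q, φ q s = c q) ↔ ∃ x : Fin ℓ → V, s = encode α x ∧ G.Holds x := by
  classical
  set x₁ : Fin ℓ → V := fun j => (G j).getD 0 with hx₁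
  have hx₁G : G.Holds x₁ := by
    intro j a h
    simp [hx₁, h]
  -- the direction space
  let W₀' : AddSubgroup (Fin ρ → V) :=
    { carrier := {s | ∃ z : Fin ℓ → V, s = encode α z ∧ ∀ j a, G j = some a → z j = 0}
      add_mem' := by
        rintro _ _ ⟨z, rfl, hz⟩ ⟨z', rfl, hz'⟩
        refine ⟨fun j => z j + z' j, (encode_add α z z').symm, fun j a h => ?_⟩
        simp [hz j a h, hz' j a h]
      zero_mem' := ⟨fun _ => 0, (encode_zero α).symm, fun _ _ _ => rfl⟩
      neg_mem' := by
        rintro _ ⟨z, rfl, hz⟩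
        refine ⟨fun j => 0 - z j, ?_, fun j a h => by simp [hz j a h]⟩
        rw [encode_sub, encode_zero]
        funext i
        simp }
  let W₀ : Submodule (ZMod 2) (Fin ρ → V) := AddSubgroup.toZModSubmodule 2 W₀'
  have hW₀ : ∀ s, s ∈ W₀ ↔ ∃ z : Fin ℓ → V, s = encode α z ∧ ∀ j a, G j = some a → z j = 0 := by
    intro s
    rfl
  let D := W₀.dualAnnihilator
  let b := Module.finBasis (ZMod 2) D
  have hd : Module.finrank (ZMod 2) D ≤ M := by
    have h1 : Module.finrank (ZMod 2) D ≤ Module.finrank (ZMod 2) (Module.Dual (ZMod 2) (Fin ρ → V)) :=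
      Submodule.finrank_le _
    have h2 : Module.finrank (ZMod 2) (Module.Dual (ZMod 2) (Fin ρ → V)) =
        Module.finrank (ZMod 2) (Fin ρ → V) := Subspace.dual_finrank_eq
    have h3 : Fintype.card (Fin ρ → V) = 2 ^ Module.finrank (ZMod 2) (Fin ρ → V) := by
      have := Module.card_eq_pow_finrank (K := ZMod 2) (V := Fin ρ → V)
      simpa using this
    have h4 : Fintype.card (Fin ρ → V) = Fintype.card V ^ ρ := by simp
    have h5 : Module.finrank (ZMod 2) (Fin ρ → V) ≤ M := by
      rw [h4] at h3
      rw [h3] at hM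
      exact (Nat.pow_le_pow_iff_right (by norm_num)).mp hM
    omega
  let φ : Fin M → Module.Dual (ZMod 2) (Fin ρ → V) := fun q =>
    if h : q.val < Module.finrank (ZMod 2) D then (b ⟨q.val, h⟩ : Module.Dual (ZMod 2) (Fin ρ → V))
    else 0
  have hφ : ∀ q, φ q ∈ D := by
    intro q
    by_cases h : q.val < Module.finrank (ZMod 2) D
    · simp only [φ, h, dif_pos]
      exact (b ⟨q.val, h⟩).2
    · simp only [φ, h, dif_neg, not_false_eq_true]
      exact D.zero_mem
  have hall : ∀ w : Fin ρ → V, (∀ q, φ q w = 0) ↔ w ∈ W₀ := by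
    intro w
    constructor
    · intro h
      have h1 : w ∈ D.dualCoannihilator := by
        rw [Submodule.mem_dualCoannihilator]
        intro ψ hψ
        have h2 : (Module.Dual.eval (ZMod 2) (Fin ρ → V) w).comp D.subtype = 0 := by
          refine b.ext fun i => ?_
          have h3 := h ⟨i.val, lt_of_lt_of_le i.isLt hd⟩
          simp only [φ, i.isLt, dif_pos] at h3
          simpa using h3
        have h3 := congrArg (fun f => f ⟨ψ, hψ⟩) h2
        simpa using h3
      rwa [Subspace.dualAnnihilator_dualCoannihilator_eq] at h1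
    · intro h q
      exact (Submodule.mem_dualAnnihilator _).mp (hφ q) w h
  refine ⟨φ, fun q => φ q (encode α x₁), fun s => ?_⟩
  have h1 : (∀ q, φ q s = φ q (encode α x₁)) ↔ s - encode α x₁ ∈ W₀ := by
    rw [← hall]
    refine forall_congr' fun q => ?_
    rw [map_sub, sub_eq_zero]
  rw [h1, hW₀]
  constructor
  · rintro ⟨z, hz, hz'⟩
    refine ⟨fun j => x₁ j + z j, ?_, fun j a h => ?_⟩
    · rw [encode_add]
      funext i
      have := congrFun hz i
      simp only [Pi.sub_apply] at this
      rw [← this]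
      abel
    · simp only [hz' j a h, add_zero]
      exact hx₁G j a h
  · rintro ⟨x, rfl, hx⟩
    refine ⟨fun j => x j - x₁ j, ?_, fun j a h => ?_⟩
    · rw [encode_sub]
      rfl
    · show x j - x₁ j = 0
      rw [hx j a h, hx₁G j a h, sub_self]

/-- Checks exist as soon as `M` is large enough. -/
theorem exists_checks [Fintype V] [CharP F 2] (α : Fin ρ → F) (ℓ : ℕ)
    (hM : Fintype.card V ^ ρ ≤ 2 ^ M) : Nonempty (Checks (V := V) α ℓ M) := by
  classical
  let _ : Module (ZMod 2) V := AddCommGroup.zmodModule (n := 2) (by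
    intro x
    have h1 : ((2 : ℕ) : F) = 0 := CharP.cast_eq_zero F 2
    have h2 : (((2 : ℕ) : F)) • x = 0 := by rw [h1, zero_smul]
    rwa [Nat.cast_smul_eq_nsmul] at h2)
  have h := fun G : Guard V ℓ => exists_rows (ℓ := ℓ) α hM G
  choose φ c hφ using h
  refine ⟨{ row := fun G q i a => φ G q (Pi.single i a)
            row_add := fun G q i a b => by rw [Pi.single_add, map_add]
            cst := c
            spec := fun G s => ?_ }⟩
  rw [← hφ G s]
  refine forall_congr' fun q => ?_
  rw [← map_sum, Finset.univ_sum_single]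

end Vale.Agent.Lib.P310.Alt
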