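import Vale.Agent.Lib.P310.Alt.Defs

/-!
# Register programs and their translation to systems

A register program has finitely many control states and a vector of registers with values in a
finite group. A rule has up to two premises (control states), a guard (some registers must have
prescribed values), a translation of the registers and a conclusion (a control state). The facts
are pairs of a control state and a register vector, and the derivable facts are the least set
closed under the rules: deciding derivability is an alternating computation with the registers as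
its only memory.
-/

namespace Vale.Agent.Lib.P310.Alt

/-- A guard: for some registers a prescribed value. -/
abbrev Guard (V : Type) (ℓ : ℕ) : Type := Fin ℓ → Option V

/-- A register vector meets a guard. -/
def Guard.Holds {V : Type} {ℓ : ℕ} (G : Guard V ℓ) (x : Fin ℓ → V) : Prop :=
  ∀ j a, G j = some a → x j = a

/-- A rule of a register program. -/
structure Rule (V : Type) (ℓ nQ : ℕ) where
  prem₁ : Option (Fin nQ)
  prem₂ : Option (Fin nQ)
  guard : Guard V ℓ
  add : Fin ℓ → V
  concl : Fin nQ

/-- A register program with `ℓ` registers with values in `V`. -/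
structure Prog (V : Type) (ℓ : ℕ) where
  nQ : ℕ
  nR : ℕ
  rule : Fin nR → Rule V ℓ nQ

/-- The derivable facts: if the guard of a rule holds at a register vector `x` and its premises
are derivable at `x`, then its conclusion is derivable at `x` translated by the rule. -/
inductive Prog.Derives {V : Type} {ℓ : ℕ} [Add V] (P : Prog V ℓ) : Fin P.nQ → (Fin ℓ → V) → Prop
  | step (r : Fin P.nR) (x : Fin ℓ → V) (hg : (P.rule r).guard.Holds x)
      (h₁ : ∀ q, (P.rule r).prem₁ = some q → Derives P q x)
      (h₂ : ∀ q, (P.rule r).prem₂ = some q → Derives P q x) :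
      Derives P (P.rule r).concl (fun j => x j + (P.rule r).add j)

variable {F V : Type} {ρ ℓ M : ℕ}

/-- The Reed-Solomon encoding of a register vector: the values at the points `α i` of the polynomial
whose coefficients are the registers. -/
def encode [Semiring F] [AddCommMonoid V] [Module F V] (α : Fin ρ → F) (x : Fin ℓ → V) :
    Fin ρ → V :=
  fun i => ∑ j : Fin ℓ, (α i) ^ (j : ℕ) • x j

/-- Linear checks for the set of encodings of register vectors that meet a guard: `M` equations,
each the sum over the classes of an additive map of the value of the class. -/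
structure Checks [Semiring F] [AddCommMonoid V] [Module F V] (α : Fin ρ → F) (ℓ M : ℕ) where
  row : Guard V ℓ → Fin M → Fin ρ → V → ZMod 2
  row_add : ∀ G q i a b, row G q i (a + b) = row G q i a + row G q i b
  cst : Guard V ℓ → Fin M → ZMod 2
  spec : ∀ G (s : Fin ρ → V), (∀ q, ∑ i, row G q i (s i) = cst G q) ↔
    ∃ x : Fin ℓ → V, s = encode α x ∧ G.Holds x

/-- The gates of a program: three for every rule and two for the root. -/
abbrev GateTag (nR : ℕ) : Type := Fin nR ⊕ Fin nR ⊕ Fin nR ⊕ Bool

section Sys

variable [Semiring F] [AddCommMonoid V] [Module F V]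

/-- The family of a control state. -/
def stF {V : Type} {ℓ : ℕ} (P : Prog V ℓ) (q : Fin P.nQ) : Fin (P.nQ + P.nR + 1) :=
  (Fin.castAdd P.nR q).castSucc

/-- The family of a rule. -/
def ruF {V : Type} {ℓ : ℕ} (P : Prog V ℓ) (r : Fin P.nR) : Fin (P.nQ + P.nR + 1) :=
  (Fin.natAdd P.nQ r).castSucc

/-- The bottom cut of a gate: the premises of a rule are the two input members of its family, the
output member is the bottom of the gate for the conclusion. -/
def gateBot {V : Type} {ℓ : ℕ} (P : Prog V ℓ) (q₀ : Fin P.nQ) :
    GateTag P.nR → Option (Fin (P.nQ + P.nR + 1) × Option Bool)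
  | .inl r => (P.rule r).prem₁.map fun q => (stF P q, some false)
  | .inr (.inl r) => (P.rule r).prem₂.map fun q => (stF P q, some false)
  | .inr (.inr (.inl r)) => some (ruF P r, none)
  | .inr (.inr (.inr true)) => some (stF P q₀, some false)
  | .inr (.inr (.inr false)) => none

/-- The top cut of a gate. -/
def gateTop {V : Type} {ℓ : ℕ} (P : Prog V ℓ) :
    GateTag P.nR → Fin (P.nQ + P.nR + 1) × Bool
  | .inl r => (ruF P r, false)
  | .inr (.inl r) => (ruF P r, true)
  | .inr (.inr (.inl r)) => (stF P (P.rule r).concl, false)
  | .inr (.inr (.inr _)) => (Fin.last _, false)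

/-- The guard of a gate. -/
def gateGuard {V : Type} {ℓ : ℕ} (P : Prog V ℓ) (x₀ : Fin ℓ → V) : GateTag P.nR → Guard V ℓ
  | .inr (.inr (.inl r)) => (P.rule r).guard
  | .inr (.inr (.inr _)) => fun j => some (x₀ j)
  | _ => fun _ => none

/-- The translation of registers at a gate. -/
def gateAdd {V : Type} {ℓ : ℕ} [Zero V] (P : Prog V ℓ) : GateTag P.nR → Fin ℓ → V
  | .inr (.inr (.inl r)) => (P.rule r).add
  | _ => fun _ => 0

/-- The base vectors: the first `ρ` coordinates are parity checks that tie the classes together,
the other `M` coordinates are the linear checks of the guard. -/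
def baseVec {α : Fin ρ → F} (C : Checks (V := V) α ℓ M) (G : Guard V ℓ) (i : Fin ρ) (r : V) :
    Fin (ρ + M) → ZMod 2 :=
  Fin.addCases
    (fun j => (if i = j then 1 else 0) + (if i.val = 0 then 1 else 0))
    (fun t => C.row G t i r + (if i.val = 0 then C.cst G t else 0))

/-- The system of a program, a query, a choice of checks and a numbering of the gates. -/
noncomputable def progSysN (hρ : 0 < ρ) {α : Fin ρ → F} (C : Checks (V := V) α ℓ M) (P : Prog V ℓ)
    (q₀ : Fin P.nQ) (x₀ : Fin ℓ → V) {nG : ℕ} (gE : GateTag P.nR ≃ Fin nG) : Sys ρ V where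
  nF := P.nQ + P.nR
  nG := nG
  m := ρ + M
  m_pos := by omega
  bot g := gateBot P q₀ (gE.symm g)
  top g := gateTop P (gE.symm g)
  lam g := encode α (gateAdd P (gE.symm g))
  u g := baseVec C (gateGuard P x₀ (gE.symm g))
  gt := gE (.inr (.inr (.inr true)))

/-- The system of a program, a query and a choice of checks, with an arbitrary numbering of the
gates. -/
noncomputable abbrev progSys (hρ : 0 < ρ) {α : Fin ρ → F} (C : Checks (V := V) α ℓ M) (P : Prog V ℓ)
    (q₀ : Fin P.nQ) (x₀ : Fin ℓ → V) : Sys ρ V :=
  progSysN hρ C P q₀ x₀ (Fintype.equivFin (GateTag P.nR))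

end Sys

end Vale.Agent.Lib.P310.Alt
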