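import Vale.Agent.Lib.P310.Alt.ProgWf

/-!
# The size of the graphs of a program
-/

namespace Vale.Agent.Lib.P310.Alt

variable {F V : Type} {ρ ℓ M : ℕ} [Field F] [AddCommGroup V] [Module F V] [Fintype V]
  [DecidableEq V] {α : Fin ρ → F}

lemma numPieces_eq (S : Sys ρ V) :
    numPieces S = S.nG * (ρ * Fintype.card V) * (2 * ρ * S.m) + S.nG * (ρ * Fintype.card V) +
      S.nF * (ρ * Fintype.card V) := by
  classical
  unfold numPieces
  rw [Fintype.card_congr (pieceEquiv S).symm]
  simp only [Fintype.card_sum, Fintype.card_prod, Fintype.card_fin]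
  ring

lemma card_vtx_eq (S : Sys ρ V) :
    Fintype.card (Vtx S) =
      4 * numPieces S * (2 * numPieces S * (4 * numPieces S + 1) + 1) := by
  classical
  have h1 : Fintype.card (Piece S) = numPieces S := rfl
  simp only [Vtx, Elem, Fintype.card_prod, Fintype.card_option, Fintype.card_fin, h1,
    ZMod.card]
  ring

/-- The number of constraints of the system of a program, for a numbering of the gates. -/
lemma numPieces_progSysN (hρ : 0 < ρ) (C : Checks (V := V) α ℓ M) (P : Prog V ℓ) (q₀ : Fin P.nQ)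
    (x₀ : Fin ℓ → V) {nG : ℕ} (ge : GateTag P.nR ≃ Fin nG) :
    numPieces (progSysN hρ C P q₀ x₀ ge) =
      nG * (ρ * Fintype.card V) * (2 * ρ * (ρ + M)) +
        nG * (ρ * Fintype.card V) + (P.nQ + P.nR) * (ρ * Fintype.card V) := by
  rw [numPieces_eq]
  rfl

/-- The number of constraints of the system of a program. -/
lemma numPieces_progSys (hρ : 0 < ρ) (C : Checks (V := V) α ℓ M) (P : Prog V ℓ) (q₀ : Fin P.nQ)
    (x₀ : Fin ℓ → V) :
    numPieces (progSys hρ C P q₀ x₀) =
      (3 * P.nR + 2) * (ρ * Fintype.card V) * (2 * ρ * (ρ + M)) +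
        (3 * P.nR + 2) * (ρ * Fintype.card V) + (P.nQ + P.nR) * (ρ * Fintype.card V) := by
  have h1 : Fintype.card (GateTag P.nR) = 3 * P.nR + 2 := by
    simp only [GateTag, Fintype.card_sum, Fintype.card_fin, Fintype.card_bool]
    ring
  rw [← h1]
  exact numPieces_progSysN hρ C P q₀ x₀ _

end Vale.Agent.Lib.P310.Alt
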