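import Vale.Agent.Lib.P310.Alt.Setter

/-!
# The root family and the repair of the twisted gate
-/

namespace Vale.Agent.Lib.P310.Alt

open Function

variable {ρ : ℕ} {V : Type} [AddCommGroup V] [Module (ZMod 2) V] [Fintype V] [DecidableEq V]
  {S : Sys ρ V} {s₀ : Fin ρ → V} {gR : Fin S.nG} {pa : Fin (S.nF + 1) × Option Bool}
  {Code : Set (Fin ρ → V)}

/-- The root cut. -/
def rootCut (S : Sys ρ V) : Fin (S.nF + 1) × Option Bool := (Fin.last S.nF, some false)

/-- The half of a position. -/
def rb (l : Fin (2 * ρ * S.m)) : ZMod 2 := if ρ * S.m ≤ l.val then 1 else 0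

/-- The root is derivable only at `s₀`. -/
lemma Wf.der_root (hW : Wf S s₀ gR pa Code) {p : Fin (S.nF + 1) × Option Bool} {s : Fin ρ → V}
    (hd : S.Der p s) (hp : p.1 = Fin.last S.nF) : s = s₀ := by
  cases hd with
  | gate g hg s' hs ha =>
    have h1 : (S.top g).1 = Fin.last S.nF := hp
    rcases hW.top_last g h1 with h2 | h2
    · exact absurd h2 hg
    · subst h2
      have h3 := (hW.gR_A s').mp hs
      subst h3
      funext i
      rw [hW.gR_lam, add_zero]
  | conj f s' _ _ =>
    exfalso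
    have h1 : f.castSucc = Fin.last S.nF := hp
    exact (Fin.castSucc_lt_last f).ne h1

lemma Wf.u_ne_zero (hW : Wf S s₀ gR pa Code) (g : Fin S.nG) (c : Tok ρ V) :
    (fun q => S.u g c.1 c.2 q) ≠ 0 := by
  classical
  intro h0
  have hρ := hW.rho_ge
  rcases hW.dep g {c} (by simp; omega) (by simpa using h0) with h | ⟨s, -, h⟩
  · have h1 := (h c.1).1
    have h2 : ({c} : Finset (Tok ρ V)).filter (fun c' => c'.1 = c.1) = {c} := by
      ext x
      simp only [Finset.mem_filter, Finset.mem_singleton]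
      constructor
      · exact fun h => h.1
      · rintro rfl
        exact ⟨rfl, rfl⟩
    rw [h2] at h1
    simp at h1
  · have h1 : (Finset.univ.image (fun i => (i, s i))).card = ρ := by
      rw [Finset.card_image_of_injective]
      · simp
      · intro i j hij
        exact (Prod.ext_iff.mp hij).1
    rw [← h] at h1
    simp at h1
    omega

/-- Repair of the twisted gate: the root value at a token can be flipped although a pebble sits on
the chain of that token at the twisted gate, if the other constraints complete the root fact. -/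
lemma Wf.setRF (hW : Wf S s₀ gR pa Code) {Q Q' : Finset (Piece S)} (hQ : Q.card ≤ ρ)
    (hsub : Q' ⊆ Q) {tok : Tok ρ V} {s₁ : Fin ρ → V} (hc : CompW Q (rootCut S) tok s₁)
    {lz : Fin (2 * ρ * S.m)} (hz : Piece.link S.gt tok lz ∈ Q') (θ : Th S) :
    ∃ θ' : Th S, (∀ e' ∈ Q', θ'.off e' = θ.off e') ∧
      (∀ g c l, Piece.link g c l ∈ Q' → θ'.D g c = θ.D g c) ∧
      θ'.chiV (rootCut S) tok = θ.chiV (rootCut S) tok + 1 ∧
      (∀ g, g ≠ S.gt → θ'.Y g = θ.Y g) ∧
      θ'.chiV pa tok = θ.chiV pa tok + rb lz := by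
  classical
  obtain ⟨E, hE⟩ := hc.pick
  have hshape := fun e' (he' : e' ∈ Q) => shape_of_pick hQ (hsub hz) rfl hE he'
  -- the other constraints are not on the twisted gate
  have hnl : ∀ (c c₁ : Tok ρ V) (l : Fin (2 * ρ * S.m)),
      ¬ Lnk (Piece.link S.gt c l) (rootCut S) c₁ := by
    intro c c₁ l hl
    rcases hl with ⟨h3, -⟩ | ⟨h3, -⟩
    · exact hW.bot_ne_last _ _ h3 rfl
    · exact h3 rfl
  have hpa : pa.1 ≠ Fin.last S.nF := hW.bot_ne_last _ _ hW.gt_bot
  obtain ⟨δ, -, -, -, hδ₁, hδ₂, hδ₃⟩ := exists_correction (k := ρ) (J := Empty) S.m_pos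
    (fun c : Tok ρ V => fun q => S.u S.gt c.1 c.2 q) (by simp; have := hW.rho_ge; omega)
    (fun x => x.elim) (fun x => x.elim) tok
    (by
      intro T hT
      have hT0 : T = ∅ := by
        apply Finset.eq_empty_of_forall_notMem
        intro c hc
        obtain ⟨j, -⟩ := hT c hc
        exact j.elim
      rw [hT0]
      simpa using hW.u_ne_zero S.gt tok) lz
  have hδ₂' : prefixSum (S.v S.gt tok) δ lz = rb lz := hδ₂
  have hδ₃' : ∑ l, S.v S.gt tok l * δ l = 1 := hδ₃
  -- the new state
  let d := rb (S := S) lz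
  let φ₀ : Aff V := (if pa.2 = some true then 0 else d, 0)
  let φ₁ : Aff V := (if pa.2 = some true then d else 0, 0)
  let θ₁ := θ.addY S.gt δ
  let θ₂ := θ₁.addZ (Fin.last S.nF) tok.1 (1, 0) 0
  let θ₃ := θ₂.addZ pa.1 tok.1 φ₀ φ₁
  have hchi : ∀ p (c : Tok ρ V), c.1 ≠ tok.1 → θ₃.chiV p c = θ.chiV p c := by
    intro p c hc
    rw [chiV_addZ_ne _ _ _ _ _ _ _ (Or.inr hc), chiV_addZ_ne _ _ _ _ _ _ _ (Or.inr hc)]
    rfl
  have hY : ∀ g, θ₃.Y g = θ₁.Y g := fun g => rfl
  have hroot : θ₃.chiV (rootCut S) tok = θ.chiV (rootCut S) tok + 1 := by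
    rw [chiV_addZ_ne _ _ _ _ _ _ _ (Or.inl hpa.symm)]
    obtain ⟨i, r⟩ := tok
    simp only [rootCut]
    rw [chiV_addZ_same]
    simp only [memInc, Aff.eval, add_zero, LinearMap.zero_apply]
    rfl
  have hpaV : θ₃.chiV pa tok = θ.chiV pa tok + d := by
    obtain ⟨f, μ⟩ := pa
    obtain ⟨i, r⟩ := tok
    simp only at hpa ⊢
    show (θ₂.addZ f i φ₀ φ₁).chiV (f, μ) (i, r) = _
    rw [chiV_addZ_same, chiV_addZ_ne _ _ _ _ _ _ _ (Or.inl hpa)]
    have h5 : θ₁.chiV (f, μ) (i, r) = θ.chiV (f, μ) (i, r) := rfl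
    rw [h5]
    congr 1
    cases μ with
    | none => simp [memInc, Aff.eval, φ₀, φ₁]
    | some b => cases b <;> simp [memInc, Aff.eval, φ₀, φ₁]
  have htwi : S.twist S.gt tok = S.twist S.gt tok := rfl
  have hother : ∀ e' ∈ Q', e' = Piece.link S.gt tok lz ∨
      (cls e' ≠ tok.1 ∧ ∀ c l, e' ≠ Piece.link S.gt c l) := by
    intro e' he'
    rcases hshape e' (hsub he') with rfl | ⟨j, hj, rfl⟩
    · exact Or.inl rfl
    · refine Or.inr ⟨by rw [cls_pick hE hj]; exact hj, fun c l he => ?_⟩
      have := (hE j hj).2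
      rw [he] at this
      exact hnl _ _ _ this
  refine ⟨θ₃, ?_, ?_, hroot, ?_, hpaV⟩
  · intro e' he'
    rcases hother e' he' with rfl | ⟨h1, h2⟩
    · simp only [Th.off]
      have h3 : θ₃.pre S.gt tok lz = θ.pre S.gt tok lz + d := by
        show θ₁.pre S.gt tok lz = _
        rw [pre_addY, hδ₂']
      have h4 : θ₃.Y S.gt lz = θ.Y S.gt lz := by
        rw [hY, addY_same]
        simp [hδ₁]
      rw [h3, h4, hW.gt_bot]
      simp only [Th.chiO]
      rw [hpaV]
      have h6 : ∀ a b c t : ZMod 2, a + c + (b + c) + t = a + b + t := by decide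
      rw [h6]
    · cases e' with
      | link g c l =>
        have hg : g ≠ S.gt := by
          rintro rfl
          exact h2 c l rfl
        have hc : c.1 ≠ tok.1 := h1
        simp only [Th.off]
        have h3 : θ₃.pre g c l = θ.pre g c l := by
          show θ₁.pre g c l = _
          rw [pre_addY_ne _ _ hg]
        have h4 : θ₃.Y g l = θ.Y g l := by
          rw [hY, addY_ne _ _ hg]
        have h5 : θ₃.chiO (S.bot g) c = θ.chiO (S.bot g) c := by
          cases S.bot g with
          | none => rfl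
          | some p => exact hchi p c hc
        rw [h3, h4, h5]
      | tr g c =>
        have hc : c.1 ≠ tok.1 := h1
        simp only [Th.off]
        have h5 : θ₃.chiO (S.bot g) c = θ.chiO (S.bot g) c := by
          cases S.bot g with
          | none => rfl
          | some p => exact hchi p c hc
        rw [h5, hchi _ (S.shift g c) hc]
      | con f c =>
        have hc : c.1 ≠ tok.1 := h1
        simp only [Th.off]
        rw [hchi _ c hc, hchi _ c hc]
  · intro g c l hl
    rcases hother _ hl with he | ⟨h1, h2⟩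
    · simp only [Piece.link.injEq] at he
      obtain ⟨rfl, rfl, rfl⟩ := he
      simp only [Th.D]
      rw [hW.shift_gt, hW.topCut_gt]
      have h3 : θ₃.tot S.gt c = θ.tot S.gt c + 1 := by
        show θ₁.tot S.gt c = _
        rw [tot_addY, hδ₃']
      have h4 : θ₃.chiV (Fin.last S.nF, some false) c = θ.chiV (Fin.last S.nF, some false) c + 1 :=
        hroot
      rw [h3, h4]
      have h6 : ∀ a b t : ZMod 2, a + 1 + (b + 1) + t = a + b + t := by decide
      rw [h6]
    · have hg : g ≠ S.gt := by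
        rintro rfl
        exact h2 c l rfl
      have hc : c.1 ≠ tok.1 := h1
      simp only [Th.D]
      have h3 : θ₃.tot g c = θ.tot g c := by
        show θ₁.tot g c = _
        rw [tot_addY_ne _ _ hg]
      rw [h3, hchi _ (S.shift g c) hc]
  · intro g hg
    rw [hY, addY_ne _ _ hg]

/-- A class missed by the remaining constraints when the pebble on the twisted gate stays. -/
lemma missing_class {Q Q' : Finset (Piece S)} (hQ : Q.card ≤ ρ) (hsub : Q' ⊆ Q)
    (hlt : Q'.card < ρ) {tok : Tok ρ V} {p : Fin (S.nF + 1) × Option Bool} {s₁ : Fin ρ → V}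
    (hc : CompW Q p tok s₁) {z : Piece S} (hz : z ∈ Q') (hzc : cls z = tok.1) :
    ∃ j, j ≠ tok.1 ∧ ∀ e' ∈ Q', cls e' ≠ j := by
  classical
  obtain ⟨E, hE⟩ := hc.pick
  have hshape := fun e' (he' : e' ∈ Q) => shape_of_pick hQ (hsub hz) hzc hE he'
  have hex : ∃ j, j ≠ tok.1 ∧ E j ∉ Q' := by
    by_contra hno
    push Not at hno
    have hsub' : insert z ((Finset.univ.erase tok.1).image E) ⊆ Q' := by
      intro e he
      rcases Finset.mem_insert.mp he with rfl | he
      · exact hz
      · obtain ⟨j, hj, rfl⟩ := Finset.mem_image.mp he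
        exact hno j (Finset.ne_of_mem_erase hj)
    have hcard := Finset.card_le_card hsub'
    rw [Finset.card_insert_of_notMem, card_image_pick hE] at hcard
    · have : 0 < ρ := tok.1.pos
      omega
    · intro hm
      obtain ⟨j, hj, rfl⟩ := Finset.mem_image.mp hm
      have hj' := Finset.ne_of_mem_erase hj
      rw [cls_pick hE hj'] at hzc
      exact hj' hzc
  obtain ⟨j, hj, hnot⟩ := hex
  refine ⟨j, hj, fun e' he' hce => ?_⟩
  rcases hshape e' (hsub he') with rfl | ⟨j', hj', rfl⟩
  · exact hj (hce.symm.trans hzc)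
  · rw [cls_pick hE hj'] at hce
    subst hce
    exact hnot he'

/-- If a class is missed, the truth part of the invariant is vacuous. -/
lemma truth_of_missing {Q' : Finset (Piece S)} {j : Fin ρ} (h : ∀ e' ∈ Q', cls e' ≠ j) (θ : Th S) :
    Truth Q' θ := by
  intro p s _ hp
  obtain ⟨e', he', hl⟩ := hp j
  exact absurd (lnk_class hl).symm (h e' he')

end Vale.Agent.Lib.P310.Alt
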