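import Vale.Agent.Lib.P310.Alt.Theta

/-!
# Links, the invariant and the forced values
-/

namespace Vale.Agent.Lib.P310.Alt

open Function

variable {ρ : ℕ} {V : Type} [AddCommGroup V] [Module (ZMod 2) V] [Fintype V] [DecidableEq V]
  {S : Sys ρ V}

/-- The class of a constraint. -/
def cls : Piece S → Fin ρ
  | .link _ c _ => c.1
  | .tr _ c => c.1
  | .con _ c => c.1

/-- The cut tokens a constraint is linked to. -/
def Lnk : Piece S → Fin (S.nF + 1) × Option Bool → Tok ρ V → Prop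
  | .link g c _, p, c₂ =>
      (S.bot g = some p ∧ c₂ = c) ∨ (g ≠ S.gt ∧ p = S.topCut g ∧ c₂ = S.shift g c)
  | .tr g c, p, c₂ => (S.bot g = some p ∧ c₂ = c) ∨ (p = S.topCut g ∧ c₂ = S.shift g c)
  | .con f c, p, c₂ => p.1 = f.castSucc ∧ c₂ = c

/-- A cut token is pinned by a set of constraints. -/
def Pin (Q : Finset (Piece S)) (p : Fin (S.nF + 1) × Option Bool) (c : Tok ρ V) : Prop :=
  ∃ e ∈ Q, Lnk e p c

lemma Pin.mono {Q Q' : Finset (Piece S)} (h : Q' ⊆ Q) {p : Fin (S.nF + 1) × Option Bool}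
    {c : Tok ρ V} (hp : Pin Q' p c) : Pin Q p c := by
  obtain ⟨e, he, hl⟩ := hp
  exact ⟨e, h he, hl⟩

lemma lnk_class {e : Piece S} {p : Fin (S.nF + 1) × Option Bool} {c : Tok ρ V} (h : Lnk e p c) :
    c.1 = cls e := by
  cases e with
  | link g c₀ l =>
    rcases h with ⟨-, rfl⟩ | ⟨-, -, rfl⟩ <;> rfl
  | tr g c₀ =>
    rcases h with ⟨-, rfl⟩ | ⟨-, rfl⟩ <;> rfl
  | con f c₀ =>
    obtain ⟨-, rfl⟩ := h
    rfl

/-- The parity of a derivable fact is respected as soon as all its tokens are pinned. -/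
def Truth (Q : Finset (Piece S)) (θ : Th S) : Prop :=
  ∀ p s, S.Der p s → (∀ i, Pin Q p (i, s i)) → ∑ i, θ.chiV p (i, s i) = 0

/-- The invariant of Duplicator's state. -/
def Inv (Q : Finset (Piece S)) (θ : Th S) : Prop :=
  (∀ g c l, Piece.link g c l ∈ Q → θ.D g c = 0) ∧ Truth Q θ

lemma Inv.mono {Q Q' : Finset (Piece S)} {θ : Th S} (h : Inv Q θ) (hs : Q' ⊆ Q) : Inv Q' θ :=
  ⟨fun g c l hl => h.1 g c l (hs hl), fun p s hd hp => h.2 p s hd fun i => (hp i).mono hs⟩

/-- The new state keeps the old one on a set of constraints. -/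
structure Keep (Q' : Finset (Piece S)) (θ θ' : Th S) : Prop where
  pin : ∀ p c, Pin Q' p c → θ'.chiV p c = θ.chiV p c
  link : ∀ g c l, Piece.link g c l ∈ Q' → θ'.Y g l = θ.Y g l ∧ θ'.pre g c l = θ.pre g c l ∧
    θ'.tot g c = θ.tot g c ∧
    θ'.chiV (S.topCut g) (S.shift g c) = θ.chiV (S.topCut g) (S.shift g c)

lemma Keep.refl (Q' : Finset (Piece S)) (θ : Th S) : Keep Q' θ θ :=
  ⟨fun _ _ _ => rfl, fun _ _ _ _ => ⟨rfl, rfl, rfl, rfl⟩⟩

lemma Keep.trans {Q' : Finset (Piece S)} {θ θ₁ θ₂ : Th S} (h₁ : Keep Q' θ θ₁)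
    (h₂ : Keep Q' θ₁ θ₂) : Keep Q' θ θ₂ :=
  ⟨fun p c hp => (h₂.pin p c hp).trans (h₁.pin p c hp), fun g c l hl => by
    obtain ⟨a, b, c', d⟩ := h₁.link g c l hl
    obtain ⟨a', b', c'', d'⟩ := h₂.link g c l hl
    exact ⟨a'.trans a, b'.trans b, c''.trans c', d'.trans d⟩⟩

lemma Keep.chiO {Q' : Finset (Piece S)} {θ θ' : Th S} (h : Keep Q' θ θ') {g : Fin S.nG}
    {c : Tok ρ V} {e : Piece S} (he : e ∈ Q') (hl : ∀ p, S.bot g = some p → Lnk e p c) :
    θ'.chiO (S.bot g) c = θ.chiO (S.bot g) c := by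
  cases hb : S.bot g with
  | none => rfl
  | some p => exact h.pin p c ⟨e, he, hl p hb⟩

lemma Keep.off {Q' : Finset (Piece S)} {θ θ' : Th S} (h : Keep Q' θ θ') {e : Piece S}
    (he : e ∈ Q') : θ'.off e = θ.off e := by
  cases e with
  | link g c l =>
    obtain ⟨h1, h2, -, -⟩ := h.link g c l he
    simp only [Th.off, h1, h2]
    rw [h.chiO he (fun p hp => Or.inl ⟨hp, rfl⟩)]
  | tr g c =>
    simp only [Th.off]
    rw [h.chiO he (fun p hp => Or.inl ⟨hp, rfl⟩),
      h.pin _ _ ⟨_, he, Or.inr ⟨rfl, rfl⟩⟩]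
  | con f c =>
    simp only [Th.off]
    rw [h.pin _ _ ⟨_, he, rfl, rfl⟩, h.pin _ _ ⟨_, he, rfl, rfl⟩]

lemma Keep.D {Q' : Finset (Piece S)} {θ θ' : Th S} (h : Keep Q' θ θ') {g : Fin S.nG}
    {c : Tok ρ V} {l : Fin (2 * ρ * S.m)} (he : Piece.link g c l ∈ Q') : θ'.D g c = θ.D g c := by
  obtain ⟨-, -, h3, h4⟩ := h.link g c l he
  simp only [Th.D, h3, h4]

/-- A valuation completes a token for a cut: it is a derivable fact and all its other tokens are
pinned. -/
def CompW (Q : Finset (Piece S)) (p : Fin (S.nF + 1) × Option Bool) (tok : Tok ρ V)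
    (s : Fin ρ → V) : Prop :=
  S.Der p s ∧ s tok.1 = tok.2 ∧ ∀ j, j ≠ tok.1 → Pin Q p (j, s j)

/-- The value forced on the missing token by a completion. -/
def Tgt (θ : Th S) (p : Fin (S.nF + 1) × Option Bool) (i : Fin ρ) (s : Fin ρ → V) : ZMod 2 :=
  ∑ j ∈ Finset.univ.erase i, θ.chiV p (j, s j)

/-- The generic way of extending the truth part of the invariant. -/
lemma truth_of_keep {Q Q' : Finset (Piece S)} {θ θ' : Th S} {e : Piece S} (hT : Truth Q θ)
    (hsub : Q' ⊆ Q) (hk : ∀ p c, Pin Q' p c → θ'.chiV p c = θ.chiV p c)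
    (hval : ∀ p tok s, Lnk e p tok → CompW Q p tok s → θ'.chiV p tok = Tgt θ p tok.1 s) :
    Truth (insert e Q') θ' := by
  classical
  intro p s hd hp
  by_cases hall : ∀ i, Pin Q' p (i, s i)
  · rw [Finset.sum_congr rfl (fun i _ => hk p _ (hall i))]
    exact hT p s hd (fun i => (hall i).mono hsub)
  · push Not at hall
    obtain ⟨i₀, hi₀⟩ := hall
    have hpin : ∀ j, j ≠ i₀ → Pin Q' p (j, s j) := by
      intro j hj
      obtain ⟨e', he', hl⟩ := hp j
      rcases Finset.mem_insert.mp he' with rfl | he'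
      · exfalso
        obtain ⟨e₂, he₂, hl₂⟩ := hp i₀
        rcases Finset.mem_insert.mp he₂ with rfl | he₂
        · have h1 := lnk_class hl
          have h2 := lnk_class hl₂
          exact hj (h1.trans h2.symm)
        · exact hi₀ ⟨e₂, he₂, hl₂⟩
      · exact ⟨e', he', hl⟩
    have hle : Lnk e p (i₀, s i₀) := by
      obtain ⟨e₂, he₂, hl₂⟩ := hp i₀
      rcases Finset.mem_insert.mp he₂ with rfl | he₂
      · exact hl₂
      · exact absurd ⟨e₂, he₂, hl₂⟩ hi₀
    have h1 := hval p (i₀, s i₀) s hle ⟨hd, rfl, fun j hj => (hpin j hj).mono hsub⟩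
    rw [← Finset.add_sum_erase _ _ (Finset.mem_univ i₀), h1]
    have h2 : ∑ j ∈ Finset.univ.erase i₀, θ'.chiV p (j, s j) = Tgt θ p i₀ s := by
      refine Finset.sum_congr rfl fun j hj => ?_
      exact hk p _ (hpin j (Finset.ne_of_mem_erase hj))
    rw [h2]
    exact zmod2_add_self' _

/-- The generic way of extending the invariant. -/
lemma inv_of_keep {Q Q' : Finset (Piece S)} {θ θ' : Th S} {e : Piece S} (hinv : Inv Q θ)
    (hsub : Q' ⊆ Q) (hk : Keep Q' θ θ') (hlink : ∀ g c l, e = Piece.link g c l → θ'.D g c = 0)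
    (hval : ∀ p tok s, Lnk e p tok → CompW Q p tok s → θ'.chiV p tok = Tgt θ p tok.1 s) :
    Inv (insert e Q') θ' := by
  classical
  refine ⟨fun g c l hl => ?_, truth_of_keep hinv.2 hsub hk.pin hval⟩
  rcases Finset.mem_insert.mp hl with hl | hl
  · exact hlink g c l hl.symm
  · rw [hk.D hl]
    exact hinv.1 g c l (hsub hl)

variable {s₀ : Fin ρ → V} {gR : Fin S.nG} {pa : Fin (S.nF + 1) × Option Bool}
  {Code : Set (Fin ρ → V)}

lemma Wf.der_code (hW : Wf S s₀ gR pa Code) {p : Fin (S.nF + 1) × Option Bool} {s : Fin ρ → V}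
    (h : S.Der p s) : s ∈ Code := by
  induction h with
  | gate g _ s hs _ _ => exact hW.code_add _ _ (hW.code_A g s hs) (hW.code_lam g)
  | conj _ _ _ _ ih _ => exact ih

/-- A piece links a family at one token only. -/
lemma Wf.lnk_unique (hW : Wf S s₀ gR pa Code) {e : Piece S} {f : Fin (S.nF + 1)}
    {μ μ' : Option Bool} {c c' : Tok ρ V} (h : Lnk e (f, μ) c) (h' : Lnk e (f, μ') c') : c = c' := by
  cases e with
  | link g c₀ l =>
    rcases h with ⟨h1, rfl⟩ | ⟨-, h1, rfl⟩ <;> rcases h' with ⟨h2, rfl⟩ | ⟨-, h2, rfl⟩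
    · rfl
    · exfalso
      have := hW.fam g _ h1
      simp only [Sys.topCut, Prod.mk.injEq] at h2
      exact this h2.1
    · exfalso
      have := hW.fam g _ h2
      simp only [Sys.topCut, Prod.mk.injEq] at h1
      exact this h1.1
    · rfl
  | tr g c₀ =>
    rcases h with ⟨h1, rfl⟩ | ⟨h1, rfl⟩ <;> rcases h' with ⟨h2, rfl⟩ | ⟨h2, rfl⟩
    · rfl
    · exfalso
      have := hW.fam g _ h1
      simp only [Sys.topCut, Prod.mk.injEq] at h2
      exact this h2.1
    · exfalso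
      have := hW.fam g _ h2
      simp only [Sys.topCut, Prod.mk.injEq] at h1
      exact this h1.1
    · rfl
  | con f' c₀ =>
    obtain ⟨-, rfl⟩ := h
    obtain ⟨-, rfl⟩ := h'
    rfl

/-- Only a sum constraint links two members of a family. -/
lemma Wf.lnk_member (hW : Wf S s₀ gR pa Code) {e : Piece S} {f : Fin (S.nF + 1)}
    {μ μ' : Option Bool} {c c' : Tok ρ V} (h : Lnk e (f, μ) c) (h' : Lnk e (f, μ') c')
    (hne : μ ≠ μ') : ∃ f' : Fin S.nF, e = Piece.con f' c ∧ f = f'.castSucc := by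
  cases e with
  | link g c₀ l =>
    exfalso
    rcases h with ⟨h1, rfl⟩ | ⟨-, h1, rfl⟩ <;> rcases h' with ⟨h2, rfl⟩ | ⟨-, h2, rfl⟩
    · rw [h1] at h2
      simp only [Option.some.injEq, Prod.mk.injEq] at h2
      exact hne h2.2
    · have := hW.fam g _ h1
      simp only [Sys.topCut, Prod.mk.injEq] at h2
      exact this h2.1
    · have := hW.fam g _ h2
      simp only [Sys.topCut, Prod.mk.injEq] at h1
      exact this h1.1
    · have h3 := h1.trans h2.symm
      simp only [Prod.mk.injEq] at h3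
      exact hne h3.2
  | tr g c₀ =>
    exfalso
    rcases h with ⟨h1, rfl⟩ | ⟨h1, rfl⟩ <;> rcases h' with ⟨h2, rfl⟩ | ⟨h2, rfl⟩
    · rw [h1] at h2
      simp only [Option.some.injEq, Prod.mk.injEq] at h2
      exact hne h2.2
    · have := hW.fam g _ h1
      simp only [Sys.topCut, Prod.mk.injEq] at h2
      exact this h2.1
    · have := hW.fam g _ h2
      simp only [Sys.topCut, Prod.mk.injEq] at h1
      exact this h1.1
    · have h3 := h1.trans h2.symm
      simp only [Prod.mk.injEq] at h3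
      exact hne h3.2
  | con f' c₀ =>
    obtain ⟨h1, rfl⟩ := h
    exact ⟨f', rfl, h1⟩

/-- Pick constraints for the pinned tokens of a completion. -/
lemma CompW.pick {Q : Finset (Piece S)} {p : Fin (S.nF + 1) × Option Bool} {tok : Tok ρ V}
    {s : Fin ρ → V} (h : CompW Q p tok s) :
    ∃ E : Fin ρ → Piece S, ∀ j, j ≠ tok.1 → E j ∈ Q ∧ Lnk (E j) p (j, s j) := by
  classical
  have h1 : ∀ j, ∃ e : Piece S, j ≠ tok.1 → e ∈ Q ∧ Lnk e p (j, s j) := by
    intro j
    by_cases hj : j = tok.1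
    · exact ⟨Piece.tr S.gt tok, fun h => absurd hj h⟩
    · obtain ⟨e, he, hl⟩ := h.2.2 j hj
      exact ⟨e, fun _ => ⟨he, hl⟩⟩
  choose E hE using h1
  exact ⟨E, hE⟩

lemma card_image_pick {E : Fin ρ → Piece S} {p : Fin (S.nF + 1) × Option Bool} {s : Fin ρ → V}
    {i : Fin ρ} {Q : Finset (Piece S)} (hE : ∀ j, j ≠ i → E j ∈ Q ∧ Lnk (E j) p (j, s j)) :
    ((Finset.univ.erase i).image E).card = ρ - 1 := by
  classical
  rw [Finset.card_image_of_injOn, Finset.card_erase_of_mem (Finset.mem_univ i), Finset.card_univ,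
    Fintype.card_fin]
  intro j hj j' hj' he
  have h1 := lnk_class (hE j (Finset.ne_of_mem_erase hj)).2
  have h2 := lnk_class (hE j' (Finset.ne_of_mem_erase hj')).2
  simp only at h1 h2
  rw [h1, h2, he]

lemma image_pick_subset {E : Fin ρ → Piece S} {p : Fin (S.nF + 1) × Option Bool} {s : Fin ρ → V}
    {i : Fin ρ} {Q : Finset (Piece S)} (hE : ∀ j, j ≠ i → E j ∈ Q ∧ Lnk (E j) p (j, s j)) :
    (Finset.univ.erase i).image E ⊆ Q := by
  classical
  intro e he
  obtain ⟨j, hj, rfl⟩ := Finset.mem_image.mp he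
  exact (hE j (Finset.ne_of_mem_erase hj)).1

lemma cls_pick {E : Fin ρ → Piece S} {p : Fin (S.nF + 1) × Option Bool} {s : Fin ρ → V}
    {i : Fin ρ} {Q : Finset (Piece S)} (hE : ∀ j, j ≠ i → E j ∈ Q ∧ Lnk (E j) p (j, s j))
    {j : Fin ρ} (hj : j ≠ i) : cls (E j) = j :=
  (lnk_class (hE j hj).2).symm

/-- Only one constraint of the class of a completed token fits besides the pinned ones. -/
lemma CompW.classUniq {Q : Finset (Piece S)} (hQ : Q.card ≤ ρ) {p : Fin (S.nF + 1) × Option Bool}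
    {tok : Tok ρ V} {s : Fin ρ → V} (h : CompW Q p tok s) {z₁ z₂ : Piece S} (h₁ : z₁ ∈ Q)
    (h₂ : z₂ ∈ Q) (hc₁ : cls z₁ = tok.1) (hc₂ : cls z₂ = tok.1) : z₁ = z₂ := by
  classical
  by_contra hne
  obtain ⟨E, hE⟩ := h.pick
  have hnm : ∀ z, cls z = tok.1 → z ∉ (Finset.univ.erase tok.1).image E := by
    intro z hz hm
    obtain ⟨j, hj, rfl⟩ := Finset.mem_image.mp hm
    have hj' := Finset.ne_of_mem_erase hj
    rw [cls_pick hE hj'] at hz
    exact hj' hz
  have hsub : insert z₁ (insert z₂ ((Finset.univ.erase tok.1).image E)) ⊆ Q := by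
    intro e he
    rcases Finset.mem_insert.mp he with rfl | he
    · exact h₁
    rcases Finset.mem_insert.mp he with rfl | he
    · exact h₂
    exact image_pick_subset hE he
  have hcard := Finset.card_le_card hsub
  rw [Finset.card_insert_of_notMem, Finset.card_insert_of_notMem (hnm _ hc₂),
    card_image_pick hE] at hcard
  · have : 0 < ρ := tok.1.pos
    omega
  · intro hm
    rcases Finset.mem_insert.mp hm with h3 | h3
    · exact hne h3
    · exact hnm _ hc₁ h3

/-- The constraints besides the pinned ones: only one constraint of the missing class remains. -/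
lemma shape_of_pick {Q : Finset (Piece S)} (hQ : Q.card ≤ ρ) {p : Fin (S.nF + 1) × Option Bool}
    {tok : Tok ρ V} {s : Fin ρ → V} {z : Piece S} (hz : z ∈ Q)
    (hc : cls z = tok.1) {E : Fin ρ → Piece S} (hE : ∀ j, j ≠ tok.1 → E j ∈ Q ∧ Lnk (E j) p (j, s j))
    {e' : Piece S} (he' : e' ∈ Q) : e' = z ∨ ∃ j, j ≠ tok.1 ∧ e' = E j := by
  classical
  have hnm : z ∉ (Finset.univ.erase tok.1).image E := by
    intro hm
    obtain ⟨j, hj, rfl⟩ := Finset.mem_image.mp hm
    have hj' := Finset.ne_of_mem_erase hj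
    rw [cls_pick hE hj'] at hc
    exact hj' hc
  have hsub : insert z ((Finset.univ.erase tok.1).image E) ⊆ Q := by
    intro e he
    rcases Finset.mem_insert.mp he with rfl | he
    · exact hz
    exact image_pick_subset hE he
  have hρ : 0 < ρ := tok.1.pos
  have heq : insert z ((Finset.univ.erase tok.1).image E) = Q := by
    refine Finset.eq_of_subset_of_card_le hsub ?_
    rw [Finset.card_insert_of_notMem hnm, card_image_pick hE]
    omega
  rw [← heq] at he'
  rcases Finset.mem_insert.mp he' with rfl | he'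
  · exact Or.inl rfl
  · obtain ⟨j, hj, rfl⟩ := Finset.mem_image.mp he'
    exact Or.inr ⟨j, Finset.ne_of_mem_erase hj, rfl⟩

/-- Two completions of a token in one family coincide. -/
lemma Wf.comp_unique (hW : Wf S s₀ gR pa Code) {Q : Finset (Piece S)} (hQ : Q.card ≤ ρ)
    {f : Fin (S.nF + 1)} {μ μ' : Option Bool} {tok : Tok ρ V} {s s' : Fin ρ → V}
    (h : CompW Q (f, μ) tok s) (h' : CompW Q (f, μ') tok s') : s = s' := by
  classical
  by_contra hne
  obtain ⟨j₀, j₁, hj, h0, h1⟩ := hW.code_dist s s' (hW.der_code h.1) (hW.der_code h'.1) hne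
  have hi : s tok.1 = s' tok.1 := h.2.1.trans h'.2.1.symm
  have hj₀ : j₀ ≠ tok.1 := fun he => h0 (he ▸ hi)
  have hj₁ : j₁ ≠ tok.1 := fun he => h1 (he ▸ hi)
  obtain ⟨E, hE⟩ := h.pick
  obtain ⟨E', hE'⟩ := h'.pick
  have hnm : ∀ j, j ≠ tok.1 → s j ≠ s' j → E' j ∉ (Finset.univ.erase tok.1).image E := by
    intro j hj hs hm
    obtain ⟨j', hj', he⟩ := Finset.mem_image.mp hm
    have hj'' := Finset.ne_of_mem_erase hj'
    have h2 := cls_pick hE hj''
    rw [he, cls_pick hE' hj] at h2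
    subst h2
    have h3 := hW.lnk_unique (hE j hj).2 (he ▸ (hE' j hj).2)
    simp only [Prod.mk.injEq, true_and] at h3
    exact hs h3
  have hsub : insert (E' j₀) (insert (E' j₁) ((Finset.univ.erase tok.1).image E)) ⊆ Q := by
    intro e he
    rcases Finset.mem_insert.mp he with rfl | he
    · exact (hE' j₀ hj₀).1
    rcases Finset.mem_insert.mp he with rfl | he
    · exact (hE' j₁ hj₁).1
    exact image_pick_subset hE he
  have hcard := Finset.card_le_card hsub
  rw [Finset.card_insert_of_notMem, Finset.card_insert_of_notMem (hnm j₁ hj₁ h1),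
    card_image_pick hE] at hcard
  · have : 0 < ρ := tok.1.pos
    omega
  · intro hm
    rcases Finset.mem_insert.mp hm with h3 | h3
    · have h4 := cls_pick hE' hj₀
      rw [h3, cls_pick hE' hj₁] at h4
      exact hj h4.symm
    · exact hnm j₀ hj₀ h0 h3

open Classical in
/-- The value forced on a token by the fact completed by it, or the old value. -/
noncomputable def want (Q : Finset (Piece S)) (θ : Th S) (p : Fin (S.nF + 1) × Option Bool)
    (tok : Tok ρ V) : ZMod 2 :=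
  if h : ∃ s, CompW Q p tok s then Tgt θ p tok.1 h.choose else θ.chiV p tok

lemma Wf.want_eq (hW : Wf S s₀ gR pa Code) {Q : Finset (Piece S)} (hQ : Q.card ≤ ρ) (θ : Th S)
    {p : Fin (S.nF + 1) × Option Bool} {tok : Tok ρ V} {s : Fin ρ → V} (h : CompW Q p tok s) :
    want Q θ p tok = Tgt θ p tok.1 s := by
  classical
  have hex : ∃ s, CompW Q p tok s := ⟨s, h⟩
  unfold want
  rw [dif_pos hex]
  obtain ⟨f, μ⟩ := p
  rw [hW.comp_unique hQ hex.choose_spec h]

lemma want_of_not {Q : Finset (Piece S)} {θ : Th S} {p : Fin (S.nF + 1) × Option Bool}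
    {tok : Tok ρ V} (h : ¬ ∃ s, CompW Q p tok s) : want Q θ p tok = θ.chiV p tok := by
  classical
  unfold want
  rw [dif_neg h]

lemma CompW.tgt_of_pin {Q : Finset (Piece S)} {θ : Th S} (hT : Truth Q θ)
    {p : Fin (S.nF + 1) × Option Bool} {tok : Tok ρ V} {s : Fin ρ → V} (h : CompW Q p tok s)
    (hp : Pin Q p tok) : Tgt θ p tok.1 s = θ.chiV p tok := by
  classical
  have h1 := hT p s h.1 (fun i => by
    by_cases hi : i = tok.1
    · subst hi
      rw [h.2.1]
      exact hp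
    · exact h.2.2 i hi)
  rw [← Finset.add_sum_erase _ _ (Finset.mem_univ tok.1), h.2.1] at h1
  have h2 : ∀ a b : ZMod 2, a + b = 0 → b = a := by decide
  exact h2 _ _ h1

lemma Wf.want_of_pin (hW : Wf S s₀ gR pa Code) {Q : Finset (Piece S)} (hQ : Q.card ≤ ρ) {θ : Th S}
    (hT : Truth Q θ) {p : Fin (S.nF + 1) × Option Bool} {tok : Tok ρ V} (hp : Pin Q p tok) :
    want Q θ p tok = θ.chiV p tok := by
  classical
  by_cases h : ∃ s, CompW Q p tok s
  · obtain ⟨s, hs⟩ := h
    rw [hW.want_eq hQ θ hs, hs.tgt_of_pin hT hp]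
  · exact want_of_not h

lemma Wf.want_ne (hW : Wf S s₀ gR pa Code) {Q : Finset (Piece S)} (hQ : Q.card ≤ ρ) {θ : Th S}
    (hT : Truth Q θ) {p : Fin (S.nF + 1) × Option Bool} {tok : Tok ρ V}
    (hne : want Q θ p tok ≠ θ.chiV p tok) : (∃ s, CompW Q p tok s) ∧ ¬ Pin Q p tok := by
  refine ⟨?_, fun hp => hne (hW.want_of_pin hQ hT hp)⟩
  by_contra h
  exact hne (want_of_not h)

end Vale.Agent.Lib.P310.Alt
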