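import Vale.Agent.Lib.P310.Alt.Spoiler

/-!
# Well-formed systems, and the first half of the main theorem
-/

namespace Vale.Agent.Lib.P310.Alt

open Function

variable {ρ : ℕ} {V : Type} [AddCommGroup V] [Fintype V] [DecidableEq V]

/-- A set of tokens with even size and zero sum in each class. -/
def EvenZero (T : Finset (Tok ρ V)) : Prop :=
  ∀ i, Even (T.filter (fun c => c.1 = i)).card ∧ ∑ c ∈ T.filter (fun c => c.1 = i), c.2 = 0

/-- The requirements on a system: the twisted gate `gt` and the gate `gR` go from the cut `pa` and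
from nothing to the root, and both are open only at the valuation `s₀`. -/
structure Wf (S : Sys ρ V) (s₀ : Fin ρ → V) (gR : Fin S.nG) (pa : Fin (S.nF + 1) × Option Bool)
    (Code : Set (Fin ρ → V)) : Prop where
  rho_ge : 3 ≤ ρ
  fam : ∀ g p, S.bot g = some p → p.1 ≠ (S.top g).1
  bot_ne_last : ∀ g p, S.bot g = some p → p.1 ≠ Fin.last S.nF
  top_last : ∀ g, (S.top g).1 = Fin.last S.nF → g = S.gt ∨ g = gR
  gt_bot : S.bot S.gt = some pa
  gt_top : S.top S.gt = (Fin.last S.nF, false)
  gt_lam : ∀ i, S.lam S.gt i = 0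
  gt_A : ∀ s, S.InA S.gt s ↔ s = s₀
  gR_bot : S.bot gR = none
  gR_top : S.top gR = (Fin.last S.nF, false)
  gR_lam : ∀ i, S.lam gR i = 0
  gR_A : ∀ s, S.InA gR s ↔ s = s₀
  code_A : ∀ g s, S.InA g s → s ∈ Code
  code_lam : ∀ g, S.lam g ∈ Code
  code_add : ∀ s t, s ∈ Code → t ∈ Code → (fun i => s i + t i) ∈ Code
  code_dist : ∀ s t, s ∈ Code → t ∈ Code → s ≠ t → ∃ i j, i ≠ j ∧ s i ≠ t i ∧ s j ≠ t j
  dep : ∀ g (T : Finset (Tok ρ V)), T.card ≤ ρ → (∑ c ∈ T, S.u g c.1 c.2 = 0) →
    EvenZero T ∨ ∃ s, S.InA g s ∧ T = Finset.univ.image (fun i => (i, s i))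

variable {S : Sys ρ V} {s₀ : Fin ρ → V} {gR : Fin S.nG} {pa : Fin (S.nF + 1) × Option Bool}
  {Code : Set (Fin ρ → V)} [PieceNum S]

lemma Wf.gR_ne (hW : Wf S s₀ gR pa Code) : gR ≠ S.gt := by
  intro h
  have h1 := hW.gR_bot
  rw [h, hW.gt_bot] at h1
  simp at h1

/-- A variable has one value in a local assignment. -/
lemma Wf.assign_fun (hW : Wf S s₀ gR pa Code) (e : Piece S) (z : XVar S) (α β w w' : ZMod 2)
    (h1 : (z, w) ∈ S.assign 1 e α β) (h2 : (z, w') ∈ S.assign 1 e α β) : w = w' := by
  cases e with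
  | link g c l =>
    have hne : ∀ l' : Fin (2 * ρ * S.m), l'.val = l.val + 1 → l' ≠ l := by
      intro l' h hc
      rw [hc] at h
      omega
    simp only [Sys.assign, List.mem_cons, List.mem_append, Prod.mk.injEq, List.not_mem_nil,
      or_false] at h1 h2
    by_cases hl : l.val + 1 < 2 * ρ * S.m
    · rw [rightVar_of_lt g c l hl] at h1 h2
      by_cases h0 : l.val = 0
      · cases hb : S.bot g <;> simp_all [Sys.botEntry] <;> aesop
      · simp only [h0, if_false, List.mem_singleton, Prod.mk.injEq] at h1 h2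
        rcases h1 with h1 | h1 | h1 <;> rcases h2 with h2 | h2 | h2 <;>
          first
          | exact h1.2.trans h2.2.symm
          | (exfalso; rw [h1.1] at h2; simp at h2; done)
          | (exfalso; rw [h1.1] at h2; simp at h2
             have h3 := congrArg Fin.val h2.1
             simp at h3; try omega)
    · rw [rightVar_of_last g c l hl] at h1 h2
      by_cases h0 : l.val = 0
      · cases hb : S.bot g <;> simp_all [Sys.botEntry] <;> aesop
      · simp only [h0, if_false, List.mem_singleton, Prod.mk.injEq] at h1 h2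
        rcases h1 with h1 | h1 | h1 <;> rcases h2 with h2 | h2 | h2 <;>
          first
          | exact h1.2.trans h2.2.symm
          | (exfalso; rw [h1.1] at h2; simp at h2)
  | tr g c =>
    cases hb : S.bot g with
    | none =>
      simp only [Sys.assign, Sys.botEntry, hb] at h1 h2
      simp at h1 h2
      rcases h1 with h1 | h1 <;> rcases h2 with h2 | h2 <;>
        first
        | exact h1.2.trans h2.2.symm
        | (exfalso; rw [h1.1] at h2; simp at h2)
    | some p =>
      have hf := hW.fam g p hb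
      simp only [Sys.assign, Sys.botEntry, hb] at h1 h2
      simp at h1 h2
      rcases h1 with h1 | h1 | h1 <;> rcases h2 with h2 | h2 | h2 <;>
        first
        | exact h1.2.trans h2.2.symm
        | (exfalso; rw [h1.1] at h2; simp at h2; done)
        | (exfalso; rw [h1.1] at h2; simp at h2; exact hf h2.1.1)
        | (exfalso; rw [h1.1] at h2; simp at h2; exact hf h2.1.1.symm)
  | con f c =>
    simp only [Sys.assign] at h1 h2
    simp at h1 h2
    rcases h1 with h1 | h1 | h1 <;> rcases h2 with h2 | h2 | h2 <;>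
      first
      | exact h1.2.trans h2.2.symm
      | (exfalso; rw [h1.1] at h2; simp at h2)

lemma Wf.known_of_der (hW : Wf S s₀ gR pa Code) {p : Fin (S.nF + 1) × Option Bool}
    {s : Fin ρ → V} (h : S.Der p s) : Known (S := S) p s 0 := by
  have hk : 2 ≤ ρ := by have := hW.rho_ge; omega
  induction h with
  | gate g hg s hs _ ih =>
    have := Known.gate (S := S) hk (hW.assign_fun) hs (ν := 0) ih (fun _ => rfl)
    rwa [if_neg hg] at this
  | conj f s _ _ ih₀ ih₁ =>
    have := Known.conj (S := S) hk (hW.assign_fun) ih₀ ih₁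
    rwa [add_zero] at this

/-- If the two graphs are equivalent, the bottom of the twisted gate is not derivable. -/
theorem Wf.not_der_of_wlEquiv (hW : Wf S s₀ gR pa Code)
    (h : WLEquiv ρ (altGraph S 0) (altGraph S 1)) : ¬ S.Der pa s₀ := by
  intro hd
  have hk : 2 ≤ ρ := by have := hW.rho_ge; omega
  have h1 := hW.known_of_der hd
  have hs₀ : ∀ i, s₀ i + S.lam S.gt i = s₀ i := fun i => by rw [hW.gt_lam, add_zero]
  have hs₁ : ∀ i, s₀ i + S.lam gR i = s₀ i := fun i => by rw [hW.gR_lam, add_zero]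
  have h2 := Known.gate (S := S) hk (hW.assign_fun) ((hW.gt_A s₀).mpr rfl) (ν := 0)
    (fun p hp => by
      rw [hW.gt_bot] at hp
      simp only [Option.some.injEq] at hp
      rwa [← hp]) (fun hn => by simp [hW.gt_bot] at hn)
  have h3 := Known.gate (S := S) hk (hW.assign_fun) ((hW.gR_A s₀).mpr rfl) (ν := 0)
    (fun p hp => by rw [hW.gR_bot] at hp; exact absurd hp (by simp)) (fun _ => rfl)
  rw [if_pos rfl] at h2
  rw [if_neg hW.gR_ne] at h3
  simp only [hs₀] at h2
  simp only [hs₁] at h3
  obtain ⟨y, hy⟩ := exists_sameColor_of_wlEquiv h (fun i => zv (Piece.tr gR (i, s₀ i)))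
  obtain ⟨α, β, h4, -⟩ := read hk hy _ (fun _ => rfl)
  have htop : S.topCut S.gt = S.topCut gR := by
    simp only [Sys.topCut, hW.gt_top, hW.gR_top]
  have hmem : ∀ i, (XVar.cut (S.topCut gR).1 (S.topCut gR).2 (i, s₀ i), β i) ∈
      S.assign 1 (Piece.tr gR (i, s₀ i)) (α i) (β i) := by
    intro i
    simp [Sys.assign, Sys.topCut, Sys.shift, hs₁]
  have h5 := h3 _ y _ α β β hy (fun _ => rfl) h4 hmem
  rw [htop] at h2
  have h6 := h2 _ y _ α β β hy (fun _ => rfl) h4 hmem
  rw [h5] at h6
  exact zero_ne_one h6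

end Vale.Agent.Lib.P310.Alt
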